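import Vale.Agent.P233.H853.Hop

/-!
P233, block B0H, part 2: the pointwise operator norm of the Hessian for all test functions, and the
bound of the vector fields `∇_{∇a} ∇b`.
-/

open MeasureTheory Filter Topology
open scoped ENNReal NNReal InnerProductSpace

namespace Vale.Agent.P233.H853

open Vale.Agent.P233

variable {M : Type*} [MeasurableSpace M] {m : Measure M} {C : Calc m}
variable {E : Type*} [NormedAddCommGroup E] [InnerProductSpace ℝ E] {Gr : (M →ₘ[m] ℝ) → M → E}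
variable {U : (M →ₘ[m] ℝ) → (M →ₘ[m] ℝ) → M → E}
variable {b f g h φ ψ : M →ₘ[m] ℝ}

/-- energy convergence gives a.e. convergence of the gradients along a subsequence -/
theorem grad_subseq (hC : IsDir C) (hG : IsGrad C Gr) {u : ℕ → M →ₘ[m] ℝ} (hu : ∀ n, u n ∈ C.W)
    (hf : f ∈ C.W) (h : Tendsto (fun n => C.nrm2 (u n - f)) atTop (𝓝 0)) :
    ∃ ns : ℕ → ℕ, StrictMono ns ∧
      ∀ᵐ x ∂m, Tendsto (fun n => Gr (u (ns n)) x) atTop (𝓝 (Gr f x)) := by
  have hE := hC.tendsto_E_of_nrm2 hu hf h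
  have h1 : ∀ n, MemLp (C.Γ (u n - f) (u n - f) - 0 : M →ₘ[m] ℝ) 1 m := fun n => by
    rw [sub_zero]; exact hC.mem1 _ (hC.sub_mem (hu n) hf)
  have h2 : Tendsto (fun n => ∫ x, |(C.Γ (u n - f) (u n - f) - 0 : M →ₘ[m] ℝ) x| ∂m) atTop
      (𝓝 0) := by
    refine hE.congr fun n => ?_
    rw [sub_zero]
    refine integral_congr_ae ?_
    filter_upwards [hC.Γ_nonneg_ae (hC.sub_mem (hu n) hf)] with x hx
    rw [abs_of_nonneg hx]
  obtain ⟨ns, hns, h3⟩ := exists_subseq_of_int_abs h1 h2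
  refine ⟨ns, hns, ?_⟩
  have h4 : ∀ᵐ x ∂m, ∀ n, ‖Gr (u n) x - Gr f x‖ = √(C.Γ (u n - f) (u n - f) x) := by
    rw [ae_all_iff]
    intro n
    filter_upwards [hG.sub hC (hu n) hf, hG.norm_eq (hC.sub_mem (hu n) hf)] with x a1 a2
    rw [← a1, a2]
  filter_upwards [h3, h4, zero_ae (M := M) (m := m)] with x a1 a2 a3
  rw [a3] at a1
  rw [tendsto_iff_norm_sub_tendsto_zero]
  simp only [a2]
  have := (Real.continuous_sqrt.tendsto 0).comp a1
  rw [Real.sqrt_zero] at this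
  exact this

/-- a dense sequence of test functions -/
theorem exists_test_seq [SigmaFinite m] [MeasurableSpace.CountablyGenerated M] (hC : IsGamma C)
    {κ : ℝ} (hB : C.BEi κ) : ∃ w : ℕ → M →ₘ[m] ℝ, (∀ n, w n ∈ C.Test) ∧
      ∀ f ∈ C.W, ∀ ε > 0, ∃ n, C.nrm2 (w n - f) < ε := by
  obtain ⟨u, hu, hd⟩ := hC.toIsDir.exists_dense_seq
  have h : ∀ p : ℕ × ℕ, ∃ t ∈ C.Test, C.nrm2 (t - u p.1) < ((p.2 : ℝ) + 1)⁻¹ := fun p =>
    hC.test_dense hB (hu p.1) (by positivity)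
  choose t ht1 ht2 using h
  refine ⟨fun n => t (Nat.unpair n), fun n => ht1 _, fun f hf ε hε => ?_⟩
  obtain ⟨n, hn⟩ := hd f hf (ε / 4) (by positivity)
  obtain ⟨k, hk⟩ := exists_nat_one_div_lt (show 0 < ε / 4 by positivity)
  refine ⟨Nat.pair n k, ?_⟩
  simp only [Nat.unpair_pair]
  have h1 : t (n, k) - f = (t (n, k) - u n) + (u n - f) := by abel
  rw [h1]
  have h2 := hC.toIsDir.nrm2_add_le (f := t (n, k) - u n) (g := u n - f)
    (hC.sub_mem (hC.tW (ht1 _)) (hu n)) (hC.sub_mem (hu n) hf)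
  have h3 := ht2 (n, k)
  rw [one_div] at hk
  linarith

/-- **the pointwise operator norm of the Hessian** -/
theorem exists_hop [SigmaFinite m] [MeasurableSpace.CountablyGenerated M] (hC : IsGamma C)
    {κ : ℝ} (hB : C.BEi κ) (hb : b ∈ C.Test) :
    ∃ D : M →ₘ[m] ℝ, 0 ≤ D ∧ MemLp D 2 m ∧
      (∀ f ∈ C.Test, ∀ h ∈ C.Test, ∀ᵐ x ∂m,
        |C.hess b f h x| ≤ D x * (√(C.Γ f f x) * √(C.Γ h h x))) ∧
      (∀ φ ∈ C.A, 0 ≤ φ → MemLp (φ * D ^ 2 : M →ₘ[m] ℝ) 1 m ∧ I (φ * D ^ 2) ≤ C.NN κ b b φ) ∧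
      I (D ^ 2) ≤ I (C.lap b ^ 2) - κ * I (C.Γ b b) := by
  have hCD : IsDir C := hC.toIsDir
  obtain ⟨w, hw, hd⟩ := exists_test_seq hC hB
  obtain ⟨Gr, hG, _⟩ := hCD.exists_grad
  obtain ⟨U, hU⟩ := hC.exists_HU hB hG
  obtain ⟨D, hD0, hD2, hDp, hDφ, hDt⟩ := hop_seq hC hB hb (F := fun n => w (Nat.unpair n).1)
    (H := fun n => w (Nat.unpair n).2) (fun _ => hw _) (fun _ => hw _)
  refine ⟨D, hD0, hD2, ?_, hDφ, hDt⟩
  -- the sequence
  have h0 : ∀ i k, ∀ᵐ x ∂m, |C.hess b (w i) (w k) x| ≤ D x * (‖Gr (w i) x‖ * ‖Gr (w k) x‖) := by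
    intro i k
    have h1 := hDp (Nat.pair i k)
    simp only [Nat.unpair_pair] at h1
    filter_upwards [h1, hG.norm_sq (hC.tW (hw i)), hG.norm_sq (hC.tW (hw k)),
      nonneg_iff_ae.1 hD0] with x a1 a2 a3 a4
    rw [← a2, ← a3] at a1
    refine abs_le_of_sq_le_sq ?_ (by positivity)
    calc C.hess b (w i) (w k) x ^ 2 ≤ _ := a1
      _ = _ := by ring
  -- one arbitrary test function
  have h1 : ∀ f ∈ C.Test, ∀ k, ∀ᵐ x ∂m, |C.hess b f (w k) x| ≤ D x * (‖Gr f x‖ * ‖Gr (w k) x‖) := by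
    intro f hf k
    choose ni hni using fun n : ℕ => hd f (hC.tW hf) (((n : ℝ) + 1)⁻¹) (by positivity)
    have hlim : Tendsto (fun n => C.nrm2 (w (ni n) - f)) atTop (𝓝 0) :=
      squeeze_zero (fun n => hCD.nrm2_nonneg (hC.sub_mem (hC.tW (hw _)) (hC.tW hf)))
        (fun n => (hni n).le) tendsto_inv_succ
    obtain ⟨ns, hns, hae⟩ := grad_subseq hCD hG (fun n => hC.tW (hw (ni n))) (hC.tW hf) hlim
    have e1 : ∀ᵐ x ∂m, ∀ i, |C.hess b (w i) (w k) x| ≤ D x * (‖Gr (w i) x‖ * ‖Gr (w k) x‖) :=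
      ae_all_iff.2 fun i => h0 i k
    have e2 : ∀ᵐ x ∂m, ∀ i, C.hess b (w i) (w k) x = ⟪U b (w k) x, Gr (w i) x⟫_ℝ := by
      rw [ae_all_iff]
      intro i
      filter_upwards [hU.inner b hb (w k) (hw k) (w i) (hw i)] with x a1
      rw [a1, hC.hess_symm hB hb (hw i) (hw k)]
    filter_upwards [hae, e1, e2, hU.inner b hb (w k) (hw k) f hf] with x a1 a2 a3 a4
    rw [hC.hess_symm hB hb hf (hw k), ← a4]
    have l1 : Tendsto (fun n => |⟪U b (w k) x, Gr (w (ni (ns n))) x⟫_ℝ|) atTop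
        (𝓝 |⟪U b (w k) x, Gr f x⟫_ℝ|) := (tendsto_const_nhds.inner a1).abs
    have l2 : Tendsto (fun n => D x * (‖Gr (w (ni (ns n))) x‖ * ‖Gr (w k) x‖)) atTop
        (𝓝 (D x * (‖Gr f x‖ * ‖Gr (w k) x‖))) :=
      (a1.norm.mul tendsto_const_nhds).const_mul _
    refine le_of_tendsto_of_tendsto' l1 l2 fun n => ?_
    rw [← a3]
    exact a2 _
  have h2 : ∀ f ∈ C.Test, ∀ h ∈ C.Test, ∀ᵐ x ∂m,
      |C.hess b f h x| ≤ D x * (‖Gr f x‖ * ‖Gr h x‖) := by
    intro f hf h hh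
    choose ni hni using fun n : ℕ => hd h (hC.tW hh) (((n : ℝ) + 1)⁻¹) (by positivity)
    have hlim : Tendsto (fun n => C.nrm2 (w (ni n) - h)) atTop (𝓝 0) :=
      squeeze_zero (fun n => hCD.nrm2_nonneg (hC.sub_mem (hC.tW (hw _)) (hC.tW hh)))
        (fun n => (hni n).le) tendsto_inv_succ
    obtain ⟨ns, hns, hae⟩ := grad_subseq hCD hG (fun n => hC.tW (hw (ni n))) (hC.tW hh) hlim
    have e1 : ∀ᵐ x ∂m, ∀ i, |C.hess b f (w i) x| ≤ D x * (‖Gr f x‖ * ‖Gr (w i) x‖) :=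
      ae_all_iff.2 fun i => h1 f hf i
    have e2 : ∀ᵐ x ∂m, ∀ i, C.hess b f (w i) x = ⟪U b f x, Gr (w i) x⟫_ℝ := by
      rw [ae_all_iff]
      intro i
      filter_upwards [hU.inner b hb f hf (w i) (hw i)] with x a1
      rw [a1]
    filter_upwards [hae, e1, e2, hU.inner b hb f hf h hh] with x a1 a2 a3 a4
    rw [← a4]
    have l1 : Tendsto (fun n => |⟪U b f x, Gr (w (ni (ns n))) x⟫_ℝ|) atTop
        (𝓝 |⟪U b f x, Gr h x⟫_ℝ|) := (tendsto_const_nhds.inner a1).abs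
    have l2 : Tendsto (fun n => D x * (‖Gr f x‖ * ‖Gr (w (ni (ns n))) x‖)) atTop
        (𝓝 (D x * (‖Gr f x‖ * ‖Gr h x‖))) :=
      (tendsto_const_nhds.mul a1.norm).const_mul _
    refine le_of_tendsto_of_tendsto' l1 l2 fun n => ?_
    rw [← a3]
    exact a2 _
  intro f hf h hh
  filter_upwards [h2 f hf h hh, hG.norm_eq (hC.tW hf), hG.norm_eq (hC.tW hh)] with x a1 a2 a3
  rw [← a2, ← a3]
  exact a1

/-- the vector form: `|∇_{∇f} ∇b| ≤ D |∇f|` -/
theorem hop_vec (hC : IsGamma C) {κ : ℝ} (hB : C.BEi κ) (hG : IsGrad C Gr) (hU : IsHU C Gr U)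
    (hb : b ∈ C.Test) {D : M →ₘ[m] ℝ} (hD0 : 0 ≤ D)
    (hD : ∀ f ∈ C.Test, ∀ h ∈ C.Test, ∀ᵐ x ∂m,
      |C.hess b f h x| ≤ D x * (√(C.Γ f f x) * √(C.Γ h h x))) (hf : f ∈ C.Test) :
    ∀ᵐ x ∂m, ‖U b f x‖ ≤ D x * ‖Gr f x‖ := by
  have hCD : IsDir C := hC.toIsDir
  -- combinations with constant coefficients
  have h1 : ∀ h ∈ C.Test, ∀ᵐ x ∂m, |⟪U b f x, Gr h x⟫_ℝ| ≤ D x * ‖Gr f x‖ * ‖Gr h x‖ := by
    intro h hh
    filter_upwards [hD f hf h hh, hG.norm_eq (hC.tW hf), hG.norm_eq (hC.tW hh),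
      hU.inner b hb f hf h hh] with x a1 a2 a3 a4
    rw [a4, a2, a3, mul_assoc]
    exact a1
  -- combinations with function coefficients
  have h2 : ∀ Z, C.IsTestV Z → ∀ᵐ x ∂m,
      |⟪U b f x, fvec Gr Z x⟫_ℝ| ≤ D x * ‖Gr f x‖ * ‖fvec Gr Z x‖ := by
    intro Z hZ
    -- real coefficients
    have key : ∀ᵐ x ∂m, ∀ c : Fin Z.length → ℝ,
        |⟪U b f x, ∑ i, c i • Gr (Z.get i).2 x⟫_ℝ|
          ≤ D x * ‖Gr f x‖ * ‖∑ i, c i • Gr (Z.get i).2 x‖ := by
      have hq : ∀ᵐ x ∂m, ∀ c : Fin Z.length → ℚ,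
          |⟪U b f x, ∑ i, (c i : ℝ) • Gr (Z.get i).2 x⟫_ℝ|
            ≤ D x * ‖Gr f x‖ * ‖∑ i, (c i : ℝ) • Gr (Z.get i).2 x‖ := by
        rw [ae_all_iff]
        intro c
        have hT : ∀ i : Fin Z.length, (Z.get i).2 ∈ C.Test := fun i => (hZ _ (List.get_mem Z i)).2
        have hTc : ∀ i : Fin Z.length, (c i : ℝ) • (Z.get i).2 ∈ C.Test := fun i =>
          hC.test_smul' _ (hT i)
        have hS : ∑ i, (c i : ℝ) • (Z.get i).2 ∈ C.Test := hC.test_sum hB _ hTc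
        have hgr : ∀ s : Finset (Fin Z.length), ∀ᵐ x ∂m,
            Gr (∑ i ∈ s, (c i : ℝ) • (Z.get i).2) x = ∑ i ∈ s, (c i : ℝ) • Gr (Z.get i).2 x := by
          classical
          intro s
          induction s using Finset.induction_on with
          | empty =>
            simp only [Finset.sum_empty]
            exact hG.zero hCD
          | insert i s hi ih =>
            rw [Finset.sum_insert hi]
            filter_upwards [ih, hG.add hCD (hC.tW (hTc i)) (hC.tW (hC.test_sum hB s hTc)),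
              hG.smul hCD (c i : ℝ) (hC.tW (hT i))] with x a1 a2 a3
            rw [a2, a1, a3, Finset.sum_insert hi]
        filter_upwards [h1 _ hS, hgr Finset.univ] with x a1 a2
        rw [a2] at a1
        exact a1
      filter_upwards [hq] with x hx c
      have hd : Dense (Set.range fun c : Fin Z.length → ℚ => fun i => (c i : ℝ)) := by
        have := DenseRange.piMap (ι := Fin Z.length) (f := fun _ => ((↑) : ℚ → ℝ))
          (fun _ => Rat.denseRange_cast)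
        exact this
      have hcl : IsClosed {c : Fin Z.length → ℝ | |⟪U b f x, ∑ i, c i • Gr (Z.get i).2 x⟫_ℝ|
          ≤ D x * ‖Gr f x‖ * ‖∑ i, c i • Gr (Z.get i).2 x‖} := by
        have k1 : Continuous fun c : Fin Z.length → ℝ => ∑ i, c i • Gr (Z.get i).2 x :=
          continuous_finsetSum _ fun i _ => (continuous_apply i).smul continuous_const
        exact isClosed_le (continuous_const.inner k1).abs (continuous_const.mul k1.norm)
      have hsub : Set.range (fun c : Fin Z.length → ℚ => fun i => (c i : ℝ)) ⊆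
          {c : Fin Z.length → ℝ | |⟪U b f x, ∑ i, c i • Gr (Z.get i).2 x⟫_ℝ|
          ≤ D x * ‖Gr f x‖ * ‖∑ i, c i • Gr (Z.get i).2 x‖} := by
        rintro _ ⟨c, rfl⟩
        exact hx c
      have := hcl.closure_subset_iff.2 hsub
      rw [hd.closure_eq] at this
      exact this (Set.mem_univ c)
    filter_upwards [key] with x hx
    have e : fvec Gr Z x = ∑ i : Fin Z.length, (Z.get i).1 x • Gr (Z.get i).2 x := by
      unfold fvec
      rw [← List.sum_ofFn]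
      congr 1
      conv_lhs => rw [← List.ofFn_get Z]
      rw [List.map_ofFn]
      rfl
    rw [e]
    exact hx _
  -- the limit
  choose Z hZ1 hZ2 using fun n : ℕ => hU.dense b hb f hf (ENNReal.ofReal (((n : ℝ) + 1)⁻¹))
    (ENNReal.ofReal_pos.2 (by positivity))
  have hm : MemLp (U b f) 2 m := hU.mem b hb f hf
  have hZm : ∀ n, AEStronglyMeasurable (fvec Gr (Z n)) m := by
    intro n
    have : fvec Gr (Z n) = fun x => ((Z n).map fun p => (fun x => p.1 x • Gr p.2 x)).sum x := by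
      funext x
      unfold fvec
      induction Z n with
      | nil => simp
      | cons a l ih => simp [ih]
    rw [this]
    have h3 : ∀ L : List ((M →ₘ[m] ℝ) × (M →ₘ[m] ℝ)), (∀ p ∈ L, p ∈ Z n) →
        AEStronglyMeasurable (fun x => (L.map fun p => (fun x => p.1 x • Gr p.2 x)).sum x) m := by
      intro L
      induction L with
      | nil => intro _; simp only [List.map_nil, List.sum_nil]; exact aestronglyMeasurable_const
      | cons a l ih =>
        intro h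
        simp only [List.map_cons, List.sum_cons, Pi.add_apply]
        exact (a.1.aestronglyMeasurable.smul (hG.mem _ (hC.tW (hZ1 n a
          (h a List.mem_cons_self)).2)).1).add (ih fun p hp => h p (List.mem_cons_of_mem _ hp))
    exact h3 _ fun p hp => hp
  have hlim : Tendsto (fun n => eLpNorm (fvec Gr (Z n) - U b f) 2 m) atTop (𝓝 0) := by
    have l1 : Tendsto (fun n : ℕ => ENNReal.ofReal (((n : ℝ) + 1)⁻¹)) atTop (𝓝 0) := by
      have := (ENNReal.continuous_ofReal.tendsto 0).comp tendsto_inv_succ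
      rw [ENNReal.ofReal_zero] at this
      exact this
    refine tendsto_of_tendsto_of_tendsto_of_le_of_le tendsto_const_nhds l1 (fun _ => bot_le)
      fun n => ?_
    rw [← eLpNorm_neg]
    refine le_of_eq_of_le ?_ (hZ2 n).le
    congr 1
    funext x
    simp
  obtain ⟨ns, hns, hae⟩ := (tendstoInMeasure_of_tendsto_eLpNorm (by norm_num) hZm hm.1
    hlim).exists_seq_tendsto_ae
  filter_upwards [hae, ae_all_iff.2 fun n => h2 (Z n) (hZ1 n), nonneg_iff_ae.1 hD0]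
    with x a1 a2 a3
  have l1 : Tendsto (fun n => |⟪U b f x, fvec Gr (Z (ns n)) x⟫_ℝ|) atTop
      (𝓝 |⟪U b f x, U b f x⟫_ℝ|) := (tendsto_const_nhds.inner a1).abs
  have l2 : Tendsto (fun n => D x * ‖Gr f x‖ * ‖fvec Gr (Z (ns n)) x‖) atTop
      (𝓝 (D x * ‖Gr f x‖ * ‖U b f x‖)) := a1.norm.const_mul _
  have h3 := le_of_tendsto_of_tendsto' l1 l2 fun n => a2 _
  rw [real_inner_self_eq_norm_sq, abs_of_nonneg (by positivity), sq] at h3
  by_cases h4 : ‖U b f x‖ = 0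
  · rw [h4]; positivity
  · exact le_of_mul_le_mul_right h3 (lt_of_le_of_ne (norm_nonneg _) (Ne.symm h4))

end Vale.Agent.P233.H853
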