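import Vale.Agent.P233.H853.Static

/-!
P233, block B6s, part 2: the curvature functional in terms of weak Hessians, and the right-hand side
of the derivative of `S(t) = ∫ ρ Hess θ(∇h,∇h)`.
-/

open MeasureTheory Filter Topology
open scoped ENNReal NNReal InnerProductSpace

namespace Vale.Agent.P233.H853

open Vale.Agent.P233

variable {M : Type*} [MeasurableSpace M] {m : Measure M}
variable {C : Calc m} {a b c f g h k L r w θ φ ψ F G : M →ₘ[m] ℝ}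
variable {E : Type*} [NormedAddCommGroup E] [InnerProductSpace ℝ E] {Gr : (M →ₘ[m] ℝ) → M → E}
variable {U : (M →ₘ[m] ℝ) → (M →ₘ[m] ℝ) → M → E}

variable (hC : IsGamma C) {κ : ℝ} (hB : C.BEi κ)

theorem De1_memLp (hC : IsGamma C) (hr : r ∈ C.A) (ha : a ∈ C.Test) :
    MemLp (De1 C r a) 2 m := by
  unfold De1
  exact mem_add (by
    rw [hC.symm _ hr.1 _ (hC.tW ha)]
    exact hC.Γ_mem2 (hC.tW ha) (hC.test_Γ_top ha) hr.1) (mem_one_add_mul hr.2 (hC.lap2 ha))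

include hC hB in
theorem wH1_mem (hF : F ∈ C.W) (hh : h ∈ C.Test) (hr : r ∈ C.A) :
    MemLp (C.Γ F h * De1 C r h : M →ₘ[m] ℝ) 1 m ∧
      MemLp ((1 + r) * C.Γ F (C.Γ h h) : M →ₘ[m] ℝ) 1 m := by
  refine ⟨mem_mul_22 ?_ (De1_memLp hC hr hh),
    mem_one_add_mul hr.2 (hC.Γ_mem1 hF (hC.Γ_mem hB hh hh).1)⟩
  rw [hC.symm _ hF _ (hC.tW hh)]
  exact hC.Γ_mem2 (hC.tW hh) (hC.test_Γ_top hh) hF

include hC hB in
theorem wH1_add (hF : F ∈ C.W) (hG : G ∈ C.W) (hh : h ∈ C.Test) (hr : r ∈ C.A) :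
    wH1 C (F + G) h r = wH1 C F h r + wH1 C G h r := by
  obtain ⟨m1, m2⟩ := wH1_mem hC hB hF hh hr
  obtain ⟨m3, m4⟩ := wH1_mem hC hB hG hh hr
  unfold wH1
  rw [hC.add_left _ hF _ hG _ (hC.tW hh), hC.add_left _ hF _ hG _ (hC.Γ_mem hB hh hh).1,
    add_mul, mul_add, I_add m1 m3, I_add m2 m4]
  ring

include hC hB in
theorem wH1_smul (t : ℝ) (hF : F ∈ C.W) (hh : h ∈ C.Test) :
    wH1 C (t • F) h r = t * wH1 C F h r := by
  have e1 : C.Γ (t • F) h * De1 C r h = t • (C.Γ F h * De1 C r h) := by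
    rw [hC.smul_left _ _ hF _ (hC.tW hh)]; algebra
  have e2 : (1 + r) * C.Γ (t • F) (C.Γ h h) = t • ((1 + r) * C.Γ F (C.Γ h h)) := by
    rw [hC.smul_left _ _ hF _ (hC.Γ_mem hB hh hh).1]; algebra
  unfold wH1
  rw [e1, e2, I_smul, I_smul]
  ring

include hC hB in
/-- for test functions the weak form is the integral of the Hessian -/
theorem wH1_test (hF : F ∈ C.Test) (hh : h ∈ C.TestI) (hr : r ∈ C.A) :
    wH1 C F h r = I ((1 + r) * C.hess F h h) := by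
  have tF := hF
  have th := hh.1
  have FW := hC.tW tF
  have hW := hC.tW th
  have hhA : C.Γ h h ∈ C.A := hC.Γ_mem hB th th
  have qA : C.Γ F h ∈ C.A := hC.Γ_mem hB tF th
  have lA : C.lap h ∈ C.A := hC.testI_lap_A hB hh
  have sq : C.Γ h F = C.Γ F h := hC.symm _ hW _ FW
  have H1 : (2 : ℝ) • C.hess F h h = (2 : ℝ) • C.Γ h (C.Γ F h) - C.Γ F (C.Γ h h) := by
    unfold Calc.hess
    algebra
  have m1 : MemLp (C.Γ F h * C.Γ r h : M →ₘ[m] ℝ) 1 m :=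
    mem_mul_top qA.2 (hC.Γ_mem1 hr.1 hW)
  have m2 : MemLp (C.Γ F h * C.lap h : M →ₘ[m] ℝ) 1 m :=
    mem_mul_22 (hC.memLp _ qA.1) (hC.memLp _ lA.1)
  have m3 : MemLp (r * (C.Γ F h * C.lap h) : M →ₘ[m] ℝ) 1 m := mem_mul_top hr.2 m2
  have m4 : MemLp (C.Γ h (C.Γ F h) : M →ₘ[m] ℝ) 1 m := hC.Γ_mem1 hW qA.1
  have m5 : MemLp (r * C.Γ h (C.Γ F h) : M →ₘ[m] ℝ) 1 m := mem_mul_top hr.2 m4
  have m6 : MemLp ((1 + r) * C.Γ F (C.Γ h h) : M →ₘ[m] ℝ) 1 m :=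
    mem_one_add_mul hr.2 (hC.Γ_mem1 FW hhA.1)
  have e1 : I (C.Γ F h * De1 C r h) = I (C.Γ F h * C.Γ r h) + I (C.Γ F h * C.lap h)
      + I (r * (C.Γ F h * C.lap h)) := by
    have : C.Γ F h * De1 C r h = C.Γ F h * C.Γ r h + C.Γ F h * C.lap h
        + r * (C.Γ F h * C.lap h) := by
      unfold De1; ring
    rw [this, I_add (mem_add m1 m2) m3, I_add m1 m2]
  have e2 : I (C.Γ F h * C.lap h) = -I (C.Γ h (C.Γ F h)) := by
    rw [hC.ibp th qA.1, neg_neg, mul_comm]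
  have e3 : I (C.Γ F h * C.Γ r h) + I (r * (C.Γ F h * C.lap h)) = -I (r * C.Γ h (C.Γ F h)) := by
    have e0 := hC.ibp' th hr qA
    have n1 : MemLp (C.Γ F h * C.Γ h r : M →ₘ[m] ℝ) 1 m := by
      rw [hC.symm _ hW _ hr.1]; exact m1
    have n2 : MemLp (r * C.Γ F h * C.lap h : M →ₘ[m] ℝ) 1 m := by
      rw [mul_assoc]; exact m3
    rw [I_add (mem_add m5 n1) n2, I_add m5 n1, hC.symm _ hW _ hr.1, mul_assoc] at e0
    linarith
  have e4 : 2 * I ((1 + r) * C.hess F h h) = 2 * (I (C.Γ h (C.Γ F h)) + I (r * C.Γ h (C.Γ F h)))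
      - I ((1 + r) * C.Γ F (C.Γ h h)) := by
    have e : (2 : ℝ) • ((1 + r) * C.hess F h h)
        = (2 : ℝ) • (C.Γ h (C.Γ F h) + r * C.Γ h (C.Γ F h)) - (1 + r) * C.Γ F (C.Γ h h) := by
      have : (2 : ℝ) • ((1 + r) * C.hess F h h) = (1 + r) * ((2 : ℝ) • C.hess F h h) := by algebra
      rw [this, H1]
      algebra
    have e5 := congrArg I e
    rw [I_smul, I_sub (mem_smul _ (mem_add m4 m5)) m6, I_smul, I_add m4 m5] at e5
    exact e5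
  unfold wH1
  rw [e1, e2]
  linarith

include hC hB in
/-- **(I1)** the curvature functional `R(∇h,∇b,∇b,∇h)(1 + r)` -/
theorem RR_eq [SigmaFinite m] [CompleteSpace E] (hG : IsGrad C Gr) (hU : IsHU C Gr U)
    (hh : h ∈ C.Test) (hb : b ∈ C.Test) (hr : r ∈ C.A) :
    RR C (UUof m U) h b r = 2⁻¹ * wH1 C (C.Γ b b) h r + I (De1 C r b * C.hess b h h)
      + 2 * I ((1 + r) * ipE m (U h b) (U b h)) - I ((1 + r) * ipE m (U b h) (U b h)) := by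
  have hW := hC.tW hh
  have bW := hC.tW hb
  have bbA : C.Γ b b ∈ C.A := hC.Γ_mem hB hb hb
  have hhA : C.Γ h h ∈ C.A := hC.Γ_mem hB hh hh
  -- `hess b b h = Γ(b,b) h / 2`
  have H1 : (2 : ℝ) • C.hess b b h = C.Γ (C.Γ b b) h := by
    unfold Calc.hess
    rw [hC.symm _ bbA.1 _ hW]
    algebra
  have e1 : I (De1 C r h * C.hess b b h) = 2⁻¹ * I (C.Γ (C.Γ b b) h * De1 C r h) := by
    have e : (2 : ℝ) • (De1 C r h * C.hess b b h) = C.Γ (C.Γ b b) h * De1 C r h := by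
      rw [← H1]; algebra
    rw [← e, I_smul]; ring
  -- `⟨∇_h h, ∇_b b⟩ = Γ(Γ(b,b), Γ(h,h)) / 4`
  have e2 : I ((1 + r) * UUof m U h h b b) = 4⁻¹ * I ((1 + r) * C.Γ (C.Γ b b) (C.Γ h h)) := by
    have e : (4 : ℝ) • ((1 + r) * UUof m U h h b b) = (1 + r) * C.Γ (C.Γ b b) (C.Γ h h) := by
      have : UUof m U h h b b = (4 : ℝ)⁻¹ • C.Γ (C.Γ b b) (C.Γ h h) := by
        apply AEEqFun.ext
        unfold UUof
        filter_upwards [ipE_ae (hU.mem h hh h hh).1 (hU.mem b hb b hb).1, hU.sym hC hB hG hh hh,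
          hU.sym hC hB hG hb hb, hG.inner _ hhA.1 _ bbA.1,
          smul_ae (C.Γ (C.Γ b b) (C.Γ h h)) (4 : ℝ)⁻¹,
          eq_iff_ae.1 (hC.symm _ bbA.1 _ hhA.1)] with x a1 a2 a3 a4 a5 a6
        rw [a1, a5, a6, ← a4, ← a2, ← a3]
        rw [← two_smul ℝ (U h h x), ← two_smul ℝ (U b b x), real_inner_smul_left,
          real_inner_smul_right]
        ring
      rw [this]
      algebra
    have e5 := congrArg I e
    rw [I_smul] at e5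
    linarith
  unfold RR wH1
  rw [e1, e2]
  have e3 : UUof m U h b b h = ipE m (U h b) (U b h) := rfl
  have e4 : UUof m U b h b h = ipE m (U b h) (U b h) := rfl
  rw [e3, e4]
  ring

include hC hB in
/-- **(I3)** the term `T/2` of B6 -/
theorem T_eq [SigmaFinite m] [CompleteSpace E] (hG : IsGrad C Gr) (hU : IsHU C Gr U)
    (hI : IsLog C L r) (hh : h ∈ C.TestI) :
    -2⁻¹ * wH1 C ((2 : ℝ) • C.lap L + C.Γ L L) h r = KT C L h r - RR C (UUof m U) h L r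
      + 2 * I ((1 + r) * ipE m (U h L) (U L h)) - I ((1 + r) * ipE m (U L h) (U L h)) := by
  have tL := hI.hL.1
  have rA := hC.test_A hI.hr.1
  have laW : C.lap L ∈ C.W := hC.test_lap_mem tL
  have LLA : C.Γ L L ∈ C.A := hC.Γ_mem hB tL tL
  have e1 : De1 C r L = C.lap r := by
    unfold De1
    rw [hI.lap, hI.rel L (hC.tW tL)]
    ring
  rw [wH1_add hC hB (hC.smul_mem _ _ laW) LLA.1 hh.1 rA, wH1_smul hC hB _ laW hh.1,
    KT_eq hC hB hI hh, RR_eq hC hB hG hU hh.1 tL rA, e1]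
  ring

include hC hB in
/-- **(I6)** the right-hand side of `S'` -/
theorem S_rhs [SigmaFinite m] [CompleteSpace E] (hG : IsGrad C Gr) (hU : IsHU C Gr U)
    (hI : IsLog C L r) (hh : h ∈ C.TestI) (hθ : θ ∈ C.Test) (ε : ℝ) :
    wH1 C (-((2 : ℝ)⁻¹ • C.Γ θ θ) - (ε ^ 2 / 8) • ((2 : ℝ) • C.lap L + C.Γ L L)) h r
      - I (De1 C r θ * C.hess θ h h)
    = -RR C (UUof m U) h θ r + 2 * I ((1 + r) * ipE m (U h θ) (U θ h))
      - I ((1 + r) * ipE m (U θ h) (U θ h))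
      + ε ^ 2 / 4 * (KT C L h r - RR C (UUof m U) h L r
        + 2 * I ((1 + r) * ipE m (U h L) (U L h)) - I ((1 + r) * ipE m (U L h) (U L h))) := by
  have tL := hI.hL.1
  have rA := hC.test_A hI.hr.1
  have laW : C.lap L ∈ C.W := hC.test_lap_mem tL
  have LLA : C.Γ L L ∈ C.A := hC.Γ_mem hB tL tL
  have θθA : C.Γ θ θ ∈ C.A := hC.Γ_mem hB hθ hθ
  have QW : (2 : ℝ) • C.lap L + C.Γ L L ∈ C.W := hC.add_mem _ (hC.smul_mem _ _ laW) _ LLA.1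
  have e0 : (-((2 : ℝ)⁻¹ • C.Γ θ θ) - (ε ^ 2 / 8) • ((2 : ℝ) • C.lap L + C.Γ L L) : M →ₘ[m] ℝ)
      = (-(2 : ℝ)⁻¹) • C.Γ θ θ + (-(ε ^ 2 / 8)) • ((2 : ℝ) • C.lap L + C.Γ L L) := by
    algebra
  rw [e0, wH1_add hC hB (hC.smul_mem _ _ θθA.1) (hC.smul_mem _ _ QW) hh.1 rA,
    wH1_smul hC hB _ θθA.1 hh.1, wH1_smul hC hB _ QW hh.1, RR_eq hC hB hG hU hh.1 hθ rA,
    ← T_eq hC hB hG hU hI hh]
  ring

include hC hB in
/-- `∫ ρ |∇_{∇L} ∇h|² ≤ ∫ ρ D² |∇L|²`, `D = |Hess h|` -/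
theorem hessh_le (hG : IsGrad C Gr) (hU : IsHU C Gr U) (hh : h ∈ C.Test) (hL : L ∈ C.Test)
    (hr : r ∈ C.A) (h0 : 0 ≤ 1 + r) {D : M →ₘ[m] ℝ} (hD0 : 0 ≤ D) (hD2 : MemLp D 2 m)
    (hD : ∀ f ∈ C.Test, ∀ g ∈ C.Test, ∀ᵐ x ∂m,
      |C.hess h f g x| ≤ D x * (√(C.Γ f f x) * √(C.Γ g g x))) :
    MemLp ((1 + r) * (D ^ 2 * C.Γ L L) : M →ₘ[m] ℝ) 1 m ∧
      I ((1 + r) * ipE m (U h L) (U h L)) ≤ I ((1 + r) * (D ^ 2 * C.Γ L L)) := by
  have hCD : IsDir C := hC.toIsDir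
  have m1 : MemLp ((1 + r) * (D ^ 2 * C.Γ L L) : M →ₘ[m] ℝ) 1 m := by
    refine mem_one_add_mul hr.2 ?_
    rw [mul_comm]
    exact mem_mul_top (hC.test_Γ_top hL) (mem_sq hD2)
  refine ⟨m1, I_mono (mem_one_add_mul hr.2 (ipE_mem (hU.mem h hh L hL) (hU.mem h hh L hL))) m1
    (le_iff_ae.2 ?_)⟩
  filter_upwards [hop_vec hC hB hG hU hh hD0 hD hL, mul_ae (1 + r) (ipE m (U h L) (U h L)),
    mul_ae (1 + r) (D ^ 2 * C.Γ L L), mul_ae (D ^ 2) (C.Γ L L), sq_ae D, nonneg_iff_ae.1 h0,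
    ipE_ae (hU.mem h hh L hL).1 (hU.mem h hh L hL).1, hG.norm_sq (hC.tW hL), nonneg_iff_ae.1 hD0]
    with x a1 a2 a3 a4 a5 a6 a7 a8 a9
  rw [a2, a3, a4, a5, a7, ← a8, real_inner_self_eq_norm_sq, ← mul_pow]
  exact mul_le_mul_of_nonneg_left (pow_le_pow_left₀ (norm_nonneg _) a1 2) a6

/-- the sectional curvature bound for the weights `1 + r` (output of G1c) -/
def SecB (C : Calc m) (UU : UUT m) (κ' : ℝ) : Prop :=
  ∀ a ∈ C.Test, ∀ b ∈ C.Test, ∀ r ∈ C.A, 0 ≤ 1 + r →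
    κ' * I ((1 + r) * (C.Γ a a * C.Γ b b - C.Γ a b * C.Γ a b)) ≤ RR C UU a b r

include hC hB in
/-- **(I5)** the differential inequality for `S`, with the error term in terms of `K_t` -/
theorem S_rhs_le [SigmaFinite m] [CompleteSpace E] (hG : IsGrad C Gr) (hU : IsHU C Gr U)
    {κ' : ℝ} (hS : SecB C (UUof m U) κ')
    (hI : IsLog C L r) (h0 : 0 ≤ 1 + r) (hh : h ∈ C.TestI) (hθ : θ ∈ C.Test) (ε : ℝ) :
    wH1 C (-((2 : ℝ)⁻¹ • C.Γ θ θ) - (ε ^ 2 / 8) • ((2 : ℝ) • C.lap L + C.Γ L L)) h r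
      - I (De1 C r θ * C.hess θ h h)
    ≤ 2 * I ((1 + r) * ipE m (U h θ) (U θ h)) - I ((1 + r) * ipE m (U θ h) (U θ h))
      - κ' * I ((1 + r) * (C.Γ h h * C.Γ θ θ - C.Γ h θ * C.Γ h θ))
      + ε ^ 2 / 4 * (KT C L h r + |κ'| * I ((1 + r) * (C.Γ h h * C.Γ L L))
        + I ((1 + r) * ipE m (U h L) (U h L))) := by
  have tL := hI.hL.1
  have rA := hC.test_A hI.hr.1
  rw [S_rhs hC hB hG hU hI hh hθ]
  have k1 := hS h hh.1 θ hθ r rA h0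
  have k2 := hS h hh.1 L tL r rA h0
  have mU : ∀ {p q r s : M →ₘ[m] ℝ}, p ∈ C.Test → q ∈ C.Test → r ∈ C.Test → s ∈ C.Test →
      MemLp (ipE m (U p q) (U r s) : M →ₘ[m] ℝ) 1 m := fun hp hq hr hs =>
    ipE_mem (hU.mem _ hp _ hq) (hU.mem _ hr _ hs)
  -- the Hessian terms
  have k3 : 2 * I ((1 + r) * ipE m (U h L) (U L h)) - I ((1 + r) * ipE m (U L h) (U L h))
      ≤ I ((1 + r) * ipE m (U h L) (U h L)) := by
    have n1 := mem_one_add_mul rA.2 (mU hh.1 tL tL hh.1)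
    have n2 := mem_one_add_mul rA.2 (mU tL hh.1 tL hh.1)
    have n3 := mem_one_add_mul rA.2 (mU hh.1 tL hh.1 tL)
    have e : 2 * I ((1 + r) * ipE m (U h L) (U L h)) - I ((1 + r) * ipE m (U L h) (U L h))
        = I ((2 : ℝ) • ((1 + r) * ipE m (U h L) (U L h)) - (1 + r) * ipE m (U L h) (U L h)) := by
      rw [I_sub (mem_smul _ n1) n2, I_smul]
    rw [e]
    refine I_mono (mem_sub (mem_smul _ n1) n2) n3 ?_
    rw [le_iff_ae]
    filter_upwards [sub_ae ((2 : ℝ) • ((1 + r) * ipE m (U h L) (U L h)))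
      ((1 + r) * ipE m (U L h) (U L h)), smul_ae ((1 + r) * ipE m (U h L) (U L h)) (2 : ℝ),
      mul_ae (1 + r) (ipE m (U h L) (U L h)), mul_ae (1 + r) (ipE m (U L h) (U L h)),
      mul_ae (1 + r) (ipE m (U h L) (U h L)),
      ipE_ae (hU.mem h hh.1 L tL).1 (hU.mem L tL h hh.1).1,
      ipE_ae (hU.mem L tL h hh.1).1 (hU.mem L tL h hh.1).1,
      ipE_ae (hU.mem h hh.1 L tL).1 (hU.mem h hh.1 L tL).1, nonneg_iff_ae.1 h0]
      with x a1 a2 a3 a4 a5 a6 a7 a8 a9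
    rw [a1, a2, a3, a4, a5, a6, a7, a8]
    have := real_inner_self_nonneg (x := U h L x - U L h x)
    rw [inner_sub_left, inner_sub_right, inner_sub_right, real_inner_comm (U h L x) (U L h x)] at this
    have h2 := mul_nonneg a9 this
    nlinarith [h2]
  -- the curvature term
  have hhA : C.Γ h h ∈ C.A := hC.Γ_mem hB hh.1 hh.1
  have LLA : C.Γ L L ∈ C.A := hC.Γ_mem hB tL tL
  have hLA : C.Γ h L ∈ C.A := hC.Γ_mem hB hh.1 tL
  have k4 : -(|κ'| * I ((1 + r) * (C.Γ h h * C.Γ L L)))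
      ≤ κ' * I ((1 + r) * (C.Γ h h * C.Γ L L - C.Γ h L * C.Γ h L)) := by
    have n1 : MemLp ((1 + r) * (C.Γ h h * C.Γ L L) : M →ₘ[m] ℝ) 1 m :=
      mem_one_add_mul rA.2 (mem_mul_22 (hC.memLp _ hhA.1) (hC.memLp _ LLA.1))
    have n2 : MemLp ((1 + r) * (C.Γ h h * C.Γ L L - C.Γ h L * C.Γ h L) : M →ₘ[m] ℝ) 1 m :=
      mem_one_add_mul rA.2 (mem_sub (mem_mul_22 (hC.memLp _ hhA.1) (hC.memLp _ LLA.1))
        (mem_mul_22 (hC.memLp _ hLA.1) (hC.memLp _ hLA.1)))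
    have hae : ∀ᵐ x ∂m, 0 ≤ ((1 + r) * (C.Γ h h * C.Γ L L - C.Γ h L * C.Γ h L) : M →ₘ[m] ℝ) x ∧
        ((1 + r) * (C.Γ h h * C.Γ L L - C.Γ h L * C.Γ h L) : M →ₘ[m] ℝ) x
          ≤ ((1 + r) * (C.Γ h h * C.Γ L L) : M →ₘ[m] ℝ) x := by
      filter_upwards [mul_ae (1 + r) (C.Γ h h * C.Γ L L - C.Γ h L * C.Γ h L),
        mul_ae (1 + r) (C.Γ h h * C.Γ L L), sub_ae (C.Γ h h * C.Γ L L) (C.Γ h L * C.Γ h L),
        mul_ae (C.Γ h h) (C.Γ L L), mul_ae (C.Γ h L) (C.Γ h L), nonneg_iff_ae.1 h0,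
        hC.toIsDir.Γ_cs_ae (hC.tW hh.1) (hC.tW tL)] with x a1 a2 a3 a4 a5 a6 a7
      rw [a1, a2, a3, a4, a5]
      refine ⟨mul_nonneg a6 (by linarith [sq (C.Γ h L x)]), ?_⟩
      exact mul_le_mul_of_nonneg_left (by linarith [mul_self_nonneg (C.Γ h L x)]) a6
    have i0 : 0 ≤ I ((1 + r) * (C.Γ h h * C.Γ L L - C.Γ h L * C.Γ h L)) := by
      refine I_nonneg (nonneg_iff_ae.2 ?_)
      filter_upwards [hae] with x hx using hx.1
    have i1 : I ((1 + r) * (C.Γ h h * C.Γ L L - C.Γ h L * C.Γ h L))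
        ≤ I ((1 + r) * (C.Γ h h * C.Γ L L)) := by
      refine I_mono n2 n1 (le_iff_ae.2 ?_)
      filter_upwards [hae] with x hx using hx.2
    have i2 := mul_le_mul_of_nonneg_left i1 (abs_nonneg κ')
    have i3 := mul_le_mul_of_nonneg_right (neg_abs_le κ') i0
    linarith
  have hε : 0 ≤ ε ^ 2 / 4 := by positivity
  have k5 : KT C L h r - RR C (UUof m U) h L r + 2 * I ((1 + r) * ipE m (U h L) (U L h))
      - I ((1 + r) * ipE m (U L h) (U L h)) ≤ KT C L h r + |κ'| * I ((1 + r) * (C.Γ h h * C.Γ L L))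
        + I ((1 + r) * ipE m (U h L) (U h L)) := by linarith
  have k6 := mul_le_mul_of_nonneg_left k5 hε
  linarith

end Vale.Agent.P233.H853
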