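import Vale.Agent.P233.Gig.IfB
import Vale.Agent.P233.H53.Stat
import Vale.Agent.P233.H853.Static2

/-! P233: the blocks `Blk_BHD`, `Blk_B6a`, `Blk_B6b` of part B. -/

set_option linter.all false

open MeasureTheory Filter Topology Set
open scoped ENNReal NNReal InnerProductSpace

universe u v

namespace Vale.Agent.P233.H853

open Vale.Agent.P233

theorem blk_BHD : Blk_BHD.{u, v} := by
  intro M _ _ m _ C K N hC hN hBE E _ _ _ Gr U hG hU
  classical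
  have hB : C.BEi K := hC.bei hN hBE
  have h : ∀ b, ∃ D : M →ₘ[m] ℝ, b ∈ C.Test → 0 ≤ D ∧ MemLp D 2 m ∧
      (∀ f ∈ C.Test, ∀ h ∈ C.Test, ∀ᵐ x ∂m,
        |C.hess b f h x| ≤ D x * (√(C.Γ f f x) * √(C.Γ h h x))) ∧
      (∀ φ ∈ C.A, 0 ≤ φ → MemLp (φ * D ^ 2 : M →ₘ[m] ℝ) 1 m ∧ I (φ * D ^ 2) ≤ C.NN K b b φ) := by
    intro b
    by_cases hb : b ∈ C.Test
    · obtain ⟨D, h1, h2, h3, h4, _⟩ := exists_hop hC hB hb
      exact ⟨D, fun _ => ⟨h1, h2, h3, h4⟩⟩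
    · exact ⟨0, fun h => absurd h hb⟩
  choose D hD using h
  refine ⟨D, fun b hb => (hD b hb).1, fun b hb => (hD b hb).2.1, fun b hb f hf g hg => ?_,
    fun b hb f hf => hop_vec hC hB hG hU hb (hD b hb).1 (hD b hb).2.2.1 hf, fun b hb w hw hw0 => ?_,
    fun b hb w hw hw0 => ?_⟩
  · filter_upwards [(hD b hb).2.2.1 f hf g hg] with x hx
    rw [mul_assoc]; exact hx
  · have e : (1 : M →ₘ[m] ℝ) + (w - 1) = w := by ring
    have h1 := hC.G2r_ge_hess (κ := K) hB hb.1 (hD b hb.1).2.1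
      (fun φ hφ h0 => ((hD b hb.1).2.2.2 φ hφ h0).2) hw (by rw [e]; exact hw0)
    unfold Calc.G2r at h1
    rw [e] at h1
    unfold Calc.G2
    linarith
  · have e : (1 : M →ₘ[m] ℝ) + (w - 1) = w := by ring
    have h1 := hC.G2r_ge hB hN hBE hb.1 hw (by rw [e]; exact hw0)
    unfold Calc.G2r at h1
    rw [e] at h1
    unfold Calc.G2
    linarith

section

variable {M : Type*} [MeasurableSpace M] {m : Measure M} {C : Calc m}
variable {a b f g h L r w θ F : M →ₘ[m] ℝ}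

theorem wHc_eq (hC : IsGamma C) (hw : w - 1 ∈ C.A) (hh : h ∈ C.Test) :
    C.wHc F h w = wH1 C F h (w - 1) := by
  have e : (1 : M →ₘ[m] ℝ) + (w - 1) = w := by ring
  unfold Calc.wHc wH1 De1
  rw [e, hC.symm _ hw.1 _ (hC.tW hh), add_comm]

end

theorem blk_B6a : Blk_B6a.{u, v} := by
  intro M _ m _ C K E _ _ _ Gr U hC hB hG hU h hh θ hθ w hw
  have hwA := hC.test_A hw.1
  have e : (1 : M →ₘ[m] ℝ) + (w - 1) = w := by ring
  have θθA : C.Γ θ θ ∈ C.A := hC.Γ_mem hB hθ.1 hθ.1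
  have h1 := RR_eq hC hB hG hU hh.1 hθ.1 hwA
  rw [wHc_eq hC hwA hh.1, wH1_smul hC hB _ θθA.1 hh.1]
  unfold RR De1 UUof at h1
  rw [e] at h1
  unfold Calc.RR
  rw [hC.symm _ (hC.tW hh.1) _ hwA.1, hC.symm _ (hC.tW hθ.1) _ hwA.1]
  linarith

theorem blk_B6b : Blk_B6b.{u} := by
  intro M _ m _ C K hC hB h hh L hL
  have hex : ∀ᵐ x ∂m, ex L x = Real.exp (L x) := AEEqFun.coeFn_comp _ _ _
  set w := ex L with hw
  have hr : ∀ᵐ x ∂m, (w - 1 : M →ₘ[m] ℝ) x = Real.exp (L x) - 1 := by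
    filter_upwards [hex, sub_ae w 1, one_ae (M := M) (m := m)] with x a1 a2 a3
    rw [a2, a1, a3]
  have hI := isLog_of_exp hC hB hL hr
  have rA := hC.test_A hI.hr.1
  have e : (1 : M →ₘ[m] ℝ) + (w - 1) = w := by ring
  have hK := KT_eq hC hB hI hh
  have tL := hL.1
  have th := hh.1
  have LW := hC.tW tL
  have hW := hC.tW th
  have LLA : C.Γ L L ∈ C.A := hC.Γ_mem hB tL tL
  have hhA : C.Γ h h ∈ C.A := hC.Γ_mem hB th th
  have qA : C.Γ L h ∈ C.A := hC.Γ_mem hB tL th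
  have laA : C.lap L ∈ C.A := hC.testI_lap_A hB hL
  have lhA : C.lap h ∈ C.A := hC.testI_lap_A hB hh
  have el : C.lap (w - 1) = w * (C.lap L + C.Γ L L) := by rw [hI.lap, e]
  unfold Calc.Kt
  rw [wHc_eq hC rA th, ← el, ← hK]
  unfold KT
  rw [e]
  have hwt : MemLp w ∞ m := by
    rw [← e]; exact mem_add mem_top_one rA.2
  -- memberships
  have hVZ : MemLp (VZ C L h) 1 m := by
    unfold VZ
    exact mem_add (mem_mul_22 (hC.memLp _ lhA.1) (hC.memLp _ qA.1))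
      (mem_smul _ (hC.Γ_mem1 LW hhA.1))
  have n1 : MemLp (w * C.lap L * VZ C L h : M →ₘ[m] ℝ) 1 m :=
    mem_mul_top (mem_mul_top hwt laA.2) hVZ
  have n2 : MemLp (w * C.Γ L L * VZ C L h : M →ₘ[m] ℝ) 1 m :=
    mem_mul_top (mem_mul_top hwt LLA.2) hVZ
  have n3 : MemLp (w * C.Γ L h * C.hess h L L : M →ₘ[m] ℝ) 1 m := by
    rw [mul_assoc]
    exact mem_mul_top hwt (mem_mul_22 (hC.memLp _ qA.1) (hC.hess_mem2 hB th tL tL))
  have e1 : ex L * (-(C.Γ L L * (C.Γ L h * C.lap h + (2 : ℝ)⁻¹ • C.Γ L (C.Γ h h)))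
          + (2 : ℝ) • (C.Γ L h * C.hess h L L)
          - (2 : ℝ) • (C.lap L * (C.Γ L h * C.lap h + (2 : ℝ)⁻¹ • C.Γ L (C.Γ h h))))
      = (-(w * C.Γ L L * VZ C L h) + (2 : ℝ) • (w * C.Γ L h * C.hess h L L))
        - (2 : ℝ) • (w * C.lap L * VZ C L h) := by
    unfold VZ
    rw [← hw]
    algebra
  have dd : C.ddh h (w * C.lap L) = ddf C h (w * C.lap L) := by
    unfold Calc.ddh ddf
    have zA : w * C.lap L ∈ C.A := by
      rw [← e]
      exact one_add_mul_A hC rA laA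
    rw [I_add (mem_mul_top lhA.2 (hC.Γ_mem1 zA.1 hW)) (mem_smul _ (hC.Γ_mem1 zA.1 hhA.1)), I_smul]
    ring
  rw [e1, I_sub (mem_add (mem_neg n2) (mem_smul _ n3)) (mem_smul _ n1),
    I_add (mem_neg n2) (mem_smul _ n3), I_neg, I_smul, I_smul, dd]
  ring

end Vale.Agent.P233.H853
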