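import Vale.Agent.P233.Bd3.B8

/-!
P233, block B0H: the pointwise operator norm of the Hessian and the improved Bochner inequality.
-/

open MeasureTheory Filter Topology
open scoped ENNReal NNReal InnerProductSpace

namespace Vale.Agent.P233.H853

open Vale.Agent.P233

variable {M : Type*} [MeasurableSpace M] {m : Measure M} {C : Calc m}

theorem meas_sel (q : ℕ → M → ℝ) (hq : ∀ i, Measurable (q i)) {j : M → ℕ} (hj : Measurable j) :
    Measurable fun x => q (j x) x := by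
  have h := measurable_from_prod_countable_right (f := fun p : ℕ × M => q p.1 p.2)
    (fun i => hq i)
  exact h.comp (hj.prodMk measurable_id)

/-- measurable selection of the maximum of finitely many functions -/
theorem sel (q : ℕ → M → ℝ) (hq : ∀ i, Measurable (q i)) (n : ℕ) :
    ∃ j : M → ℕ, Measurable j ∧ (∀ x, j x ≤ n) ∧ ∀ x, ∀ i ≤ n, q i x ≤ q (j x) x := by
  induction n with
  | zero =>
    refine ⟨fun _ => 0, measurable_const, fun _ => le_rfl, fun x i hi => ?_⟩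
    obtain rfl : i = 0 := by omega
    exact le_rfl
  | succ n ih =>
    obtain ⟨j, hj, hj1, hj2⟩ := ih
    have hqj : Measurable fun x => q (j x) x := meas_sel q hq hj
    classical
    refine ⟨fun x => if q (j x) x ≤ q (n + 1) x then n + 1 else j x,
      Measurable.ite (measurableSet_le hqj (hq _)) measurable_const hj, fun x => ?_,
      fun x i hi => ?_⟩
    · dsimp only
      split_ifs
      · exact le_rfl
      · exact (hj1 x).trans (by omega)
    · dsimp only
      split_ifs with h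
      · rcases Nat.lt_or_ge i (n + 1) with h1 | h1
        · exact (hj2 x i (by omega)).trans h
        · obtain rfl : i = n + 1 := by omega
          exact le_rfl
      · rcases Nat.lt_or_ge i (n + 1) with h1 | h1
        · exact hj2 x i (by omega)
        · obtain rfl : i = n + 1 := by omega
          exact (not_le.1 h).le

/-- the regularised quotients `hess² / (|∇F|² |∇H|²)` -/
noncomputable def qf (C : Calc m) (b : M →ₘ[m] ℝ) (F H : ℕ → M →ₘ[m] ℝ) (n i : ℕ) (x : M) : ℝ :=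
  (if |C.hess b (F i) (H i) x| ≤ n then C.hess b (F i) (H i) x ^ 2 else 0)
    / (|C.Γ (F i) (F i) x * C.Γ (H i) (H i) x| + ((n : ℝ) + 1)⁻¹)

theorem qf_nonneg (b : M →ₘ[m] ℝ) (F H : ℕ → M →ₘ[m] ℝ) (n i : ℕ) (x : M) :
    0 ≤ qf C b F H n i x := by
  unfold qf
  have : (0 : ℝ) < (n : ℝ) + 1 := by positivity
  split_ifs <;> positivity

theorem qf_mono (b : M →ₘ[m] ℝ) (F H : ℕ → M →ₘ[m] ℝ) {n k : ℕ} (h : n ≤ k) (i : ℕ) (x : M) :
    qf C b F H n i x ≤ qf C b F H k i x := by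
  unfold qf
  have h1 : (0 : ℝ) < (n : ℝ) + 1 := by positivity
  have h2 : (0 : ℝ) < (k : ℝ) + 1 := by positivity
  have h3 : (n : ℝ) ≤ k := by exact_mod_cast h
  have h4 : ((k : ℝ) + 1)⁻¹ ≤ ((n : ℝ) + 1)⁻¹ := by
    apply inv_anti₀ h1; linarith
  have h5 : (if |C.hess b (F i) (H i) x| ≤ n then C.hess b (F i) (H i) x ^ 2 else 0)
      ≤ (if |C.hess b (F i) (H i) x| ≤ k then C.hess b (F i) (H i) x ^ 2 else 0) := by
    split_ifs with a1 a2
    · exact le_rfl
    · exact absurd (a1.trans h3) a2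
    · positivity
    · exact le_rfl
  have h6 : 0 ≤ (if |C.hess b (F i) (H i) x| ≤ (n : ℝ) then C.hess b (F i) (H i) x ^ 2 else 0) := by
    split_ifs <;> positivity
  have h7 : 0 < |C.Γ (F i) (F i) x * C.Γ (H i) (H i) x| + ((k : ℝ) + 1)⁻¹ := by positivity
  have h8 : 0 < |C.Γ (F i) (F i) x * C.Γ (H i) (H i) x| + ((n : ℝ) + 1)⁻¹ := by positivity
  exact div_le_div₀ (h6.trans h5) h5 h7 (by linarith)

theorem qf_meas (b : M →ₘ[m] ℝ) (F H : ℕ → M →ₘ[m] ℝ) (n i : ℕ) :
    Measurable (qf C b F H n i) := by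
  unfold qf
  have h1 : Measurable fun x => C.hess b (F i) (H i) x := (AEEqFun.stronglyMeasurable _).measurable
  have h2 : Measurable fun x => C.Γ (F i) (F i) x := (AEEqFun.stronglyMeasurable _).measurable
  have h3 : Measurable fun x => C.Γ (H i) (H i) x := (AEEqFun.stronglyMeasurable _).measurable
  have h4 : Measurable fun x => |C.hess b (F i) (H i) x| := by fun_prop
  refine Measurable.div ?_ ?_
  · exact Measurable.ite (measurableSet_le h4 measurable_const) (h1.pow_const 2) measurable_const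
  · have h5 : Measurable fun x => |C.Γ (F i) (F i) x * C.Γ (H i) (H i) x| := by fun_prop
    exact h5.add measurable_const

variable (hC : IsGamma C) {κ : ℝ} (hB : C.BEi κ)
variable {b f g h φ ψ : M →ₘ[m] ℝ}

include hC hB

set_option maxHeartbeats 400000 in
/-- the selection inequality -/
theorem hop_sel [SigmaFinite m] (hb : b ∈ C.Test) {F H : ℕ → M →ₘ[m] ℝ}
    (hF : ∀ i, F i ∈ C.Test) (hH : ∀ i, H i ∈ C.Test) (n : ℕ) {j : M → ℕ} (hj : Measurable j)
    (hjn : ∀ x, j x ≤ n) (hφ : φ ∈ C.A) (hφ0 : 0 ≤ φ) :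
    Integrable (fun x => φ x * qf C b F H n (j x) x) m ∧
    ∫ x, φ x * qf C b F H n (j x) x ∂m ≤ C.NN κ b b φ := by
  classical
  have hCD : IsDir C := hC.toIsDir
  -- the coefficients
  set sf : Fin (n + 1) → M → ℝ := fun i x =>
    if j x = (i : ℕ) ∧ |C.hess b (F i) (H i) x| ≤ n then
      -(C.hess b (F i) (H i) x) / (2 * (|C.Γ (F i) (F i) x * C.Γ (H i) (H i) x|
        + ((n : ℝ) + 1)⁻¹)) else 0 with hsf
  have hn1 : (0 : ℝ) < (n : ℝ) + 1 := by positivity
  have m1 : ∀ i : ℕ, Measurable fun x => C.hess b (F i) (H i) x :=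
    fun i => (AEEqFun.stronglyMeasurable _).measurable
  have m2 : ∀ i : ℕ, Measurable fun x => C.Γ (F i) (F i) x :=
    fun i => (AEEqFun.stronglyMeasurable _).measurable
  have m3 : ∀ i : ℕ, Measurable fun x => C.Γ (H i) (H i) x :=
    fun i => (AEEqFun.stronglyMeasurable _).measurable
  have hsm : ∀ i, Measurable (sf i) := by
    intro i
    have m4 : Measurable fun x => |C.hess b (F i) (H i) x| := by
      have := m1 i
      fun_prop
    refine Measurable.ite ?_ ?_ measurable_const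
    · exact (hj (measurableSet_singleton _)).inter (measurableSet_le m4 measurable_const)
    · refine Measurable.div (m1 i).neg ?_
      have h2 := m2 i
      have h3 := m3 i
      have h5 : Measurable fun x => |C.Γ (F i) (F i) x * C.Γ (H i) (H i) x| := by fun_prop
      exact (h5.add measurable_const).const_mul 2
  set s : Fin (n + 1) → M →ₘ[m] ℝ := fun i => AEEqFun.mk (sf i) (hsm i).aestronglyMeasurable
    with hs
  have hsae : ∀ i, ∀ᵐ x ∂m, s i x = sf i x := fun i => AEEqFun.coeFn_mk _ _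
  have hpos : ∀ (i : ℕ) (x : M), 0 < |C.Γ (F i) (F i) x * C.Γ (H i) (H i) x| + ((n : ℝ) + 1)⁻¹ :=
    fun i x => by positivity
  have hsb : ∀ i, MemLp (s i) ∞ m := by
    intro i
    rw [mem_top_iff]
    refine ⟨n * (n + 1), ?_⟩
    filter_upwards [hsae i] with x hx
    rw [hx]
    simp only [hsf]
    split_ifs with h1
    · rw [abs_div, abs_neg, abs_of_pos (by have := hpos i x; positivity :
        (0 : ℝ) < 2 * (|C.Γ (F i) (F i) x * C.Γ (H i) (H i) x| + ((n : ℝ) + 1)⁻¹)),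
        div_le_iff₀ (by have := hpos i x; positivity)]
      have h2 : ((n : ℝ) + 1)⁻¹ ≤ |C.Γ (F i) (F i) x * C.Γ (H i) (H i) x| + ((n : ℝ) + 1)⁻¹ := by
        have := abs_nonneg (C.Γ (F i) (F i) x * C.Γ (H i) (H i) x)
        linarith
      have h3 : (n : ℝ) * (n + 1) * (2 * ((n : ℝ) + 1)⁻¹) = 2 * n := by
        field_simp
      have h4 : (n : ℝ) * (n + 1) * (2 * ((n : ℝ) + 1)⁻¹)
          ≤ n * (n + 1) * (2 * (|C.Γ (F i) (F i) x * C.Γ (H i) (H i) x| + ((n : ℝ) + 1)⁻¹)) := by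
        gcongr
      have h5 : (0 : ℝ) ≤ n := by positivity
      linarith [h1.2]
    · simp only [abs_zero]; positivity
  have hs2 : ∀ i, MemLp (s i) 2 m := by
    intro i
    refine mem_of_le (g := ((n : ℝ) + 1) • C.hess b (F i) (H i))
      (mem_smul _ (hC.hess_mem2 hB hb (hF i) (hH i))) ?_
    filter_upwards [hsae i, smul_ae (C.hess b (F i) (H i)) ((n : ℝ) + 1)] with x hx hx2
    rw [hx, hx2]
    simp only [hsf]
    split_ifs with h1
    · rw [abs_div, abs_neg, abs_of_pos (by have := hpos i x; positivity :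
        (0 : ℝ) < 2 * (|C.Γ (F i) (F i) x * C.Γ (H i) (H i) x| + ((n : ℝ) + 1)⁻¹)),
        div_le_iff₀ (by have := hpos i x; positivity), abs_mul, abs_of_pos hn1]
      have h2 : ((n : ℝ) + 1)⁻¹ ≤ |C.Γ (F i) (F i) x * C.Γ (H i) (H i) x| + ((n : ℝ) + 1)⁻¹ := by
        have := abs_nonneg (C.Γ (F i) (F i) x * C.Γ (H i) (H i) x)
        linarith
      have h3 : ((n : ℝ) + 1) * |C.hess b (F i) (H i) x| * (2 * ((n : ℝ) + 1)⁻¹)
          = 2 * |C.hess b (F i) (H i) x| := by
        field_simp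
      have h4 : ((n : ℝ) + 1) * |C.hess b (F i) (H i) x| * (2 * ((n : ℝ) + 1)⁻¹)
          ≤ ((n : ℝ) + 1) * |C.hess b (F i) (H i) x|
            * (2 * (|C.Γ (F i) (F i) x * C.Γ (H i) (H i) x| + ((n : ℝ) + 1)⁻¹)) := by
        gcongr
      have h5 := abs_nonneg (C.hess b (F i) (H i) x)
      linarith
    · simp only [abs_zero]; positivity
  have key := hC.tensor_ineq' (κ := κ) hB hb (F := fun i : Fin (n + 1) => F i)
    (H := fun i : Fin (n + 1) => H i) (s := s) (fun i => hF i) (fun i => hH i) hsb hs2 hφ hφ0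
  -- the cross terms vanish
  have hcross : ∀ i k : Fin (n + 1), i ≠ k → s i * s k = 0 := by
    intro i k hik
    apply AEEqFun.ext
    filter_upwards [mul_ae (s i) (s k), hsae i, hsae k, zero_ae (M := M) (m := m)] with x a1 a2 a3 a4
    rw [a1, a2, a3, a4]
    simp only [hsf]
    by_cases h1 : j x = (i : ℕ)
    · have h2 : ¬ (j x = (k : ℕ) ∧ |C.hess b (F k) (H k) x| ≤ n) :=
        fun h => hik (Fin.ext (h1.symm.trans h.1))
      rw [if_neg h2, mul_zero]
    · have h2 : ¬ (j x = (i : ℕ) ∧ |C.hess b (F i) (H i) x| ≤ n) := fun h => h1 h.1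
      rw [if_neg h2, zero_mul]
  have hdiag : ∀ i : Fin (n + 1), ∑ k, I (φ * (s i * s k * C.MM (F i) (H i) (F k) (H k)))
      = I (φ * (s i * s i * C.MM (F i) (H i) (F i) (H i))) := by
    intro i
    rw [Finset.sum_eq_single i]
    · intro k _ hk
      rw [hcross i k (Ne.symm hk), zero_mul, mul_zero, I_zero]
    · intro h; exact absurd (Finset.mem_univ _) h
  have mK : ∀ i : Fin (n + 1), MemLp (φ * (s i * C.KK b (F i) (H i)) : M →ₘ[m] ℝ) 1 m := fun i =>
    mem_mul_top hφ.2 (mem_mul_22 (hs2 i) (hC.KK_mem2 hB (hF i) (hH i) hb))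
  have mM : ∀ i : Fin (n + 1), MemLp (φ * (s i * s i * C.MM (F i) (H i) (F i) (H i)) :
      M →ₘ[m] ℝ) 1 m := fun i =>
    mem_mul_top hφ.2 (mem_mul_top (mem_mul_top (hsb i) (hsb i))
      (hC.MM_mem1 hB (hF i) (hH i) (hF i) (hH i)))
  have key2 : 0 ≤ C.NN κ b b φ + ∫ x, (∑ i : Fin (n + 1),
      (2 * (φ * (s i * C.KK b (F i) (H i)) : M →ₘ[m] ℝ) x
        + 2 * (φ * (s i * s i * C.MM (F i) (H i) (F i) (H i)) : M →ₘ[m] ℝ) x)) ∂m := by
    have hii : ∀ i ∈ (Finset.univ : Finset (Fin (n + 1))), Integrable (fun x =>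
        2 * (φ * (s i * C.KK b (F i) (H i)) : M →ₘ[m] ℝ) x
        + 2 * (φ * (s i * s i * C.MM (F i) (H i) (F i) (H i)) : M →ₘ[m] ℝ) x) m :=
      fun i _ => ((int_of_mem (mK i)).const_mul 2).add ((int_of_mem (mM i)).const_mul 2)
    rw [integral_finsetSum _ hii]
    have : ∀ i : Fin (n + 1), ∫ x, (2 * (φ * (s i * C.KK b (F i) (H i)) : M →ₘ[m] ℝ) x
        + 2 * (φ * (s i * s i * C.MM (F i) (H i) (F i) (H i)) : M →ₘ[m] ℝ) x) ∂m
        = 2 * I (φ * (s i * C.KK b (F i) (H i)))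
          + 2 * I (φ * (s i * s i * C.MM (F i) (H i) (F i) (H i))) := by
      intro i
      rw [integral_add ((int_of_mem (mK i)).const_mul 2) ((int_of_mem (mM i)).const_mul 2),
        integral_const_mul, integral_const_mul]
      rfl
    rw [Finset.sum_congr rfl fun i _ => this i, Finset.sum_add_distrib, ← Finset.mul_sum,
      ← Finset.mul_sum]
    simp only [hdiag] at key
    linarith
  -- pointwise bound
  have hall : ∀ᵐ x ∂m, ∀ i : Fin (n + 1), (φ * (s i * C.KK b (F i) (H i)) : M →ₘ[m] ℝ) x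
        = φ x * (sf i x * (2 * C.hess b (F i) (H i) x)) ∧
      (φ * (s i * s i * C.MM (F i) (H i) (F i) (H i)) : M →ₘ[m] ℝ) x
        = φ x * (sf i x ^ 2 * (C.Γ (F i) (F i) x * C.Γ (H i) (H i) x
          + C.Γ (F i) (H i) x ^ 2)) ∧
      C.Γ (F i) (H i) x ^ 2 ≤ C.Γ (F i) (F i) x * C.Γ (H i) (H i) x := by
    rw [ae_all_iff]
    intro i
    have e1 : C.MM (F i) (H i) (F i) (H i)
        = C.Γ (F i) (F i) * C.Γ (H i) (H i) + C.Γ (F i) (H i) * C.Γ (F i) (H i) := by
      unfold Calc.MM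
      rw [hCD.symm _ (hC.tW (hH i)) _ (hC.tW (hF i))]
    filter_upwards [hsae i, mul_ae φ (s i * C.KK b (F i) (H i)), mul_ae (s i) (C.KK b (F i) (H i)),
      smul_ae (C.hess b (F i) (H i)) (2 : ℝ),
      mul_ae φ (s i * s i * C.MM (F i) (H i) (F i) (H i)),
      mul_ae (s i * s i) (C.MM (F i) (H i) (F i) (H i)), mul_ae (s i) (s i),
      add_ae (C.Γ (F i) (F i) * C.Γ (H i) (H i)) (C.Γ (F i) (H i) * C.Γ (F i) (H i)),
      mul_ae (C.Γ (F i) (F i)) (C.Γ (H i) (H i)), mul_ae (C.Γ (F i) (H i)) (C.Γ (F i) (H i)),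
      hCD.Γ_cs_ae (hC.tW (hF i)) (hC.tW (hH i))] with x a0 a1 a2 a3 a4 a5 a6 a7 a8 a9 a10
    refine ⟨?_, ?_, a10⟩
    · rw [a1, a2, a0]
      unfold Calc.KK
      rw [a3]
    · rw [a4, a5, a6, a0, e1, a7, a8, a9]
      ring
  have hfin : ∀ᵐ x ∂m, φ x * qf C b F H n (j x) x ≤ -∑ i : Fin (n + 1),
      (2 * (φ * (s i * C.KK b (F i) (H i)) : M →ₘ[m] ℝ) x
        + 2 * (φ * (s i * s i * C.MM (F i) (H i) (F i) (H i)) : M →ₘ[m] ℝ) x) := by
    filter_upwards [hall, nonneg_iff_ae.1 hφ0] with x hx hφx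
    set i0 : Fin (n + 1) := ⟨j x, by have := hjn x; omega⟩ with hi0
    rw [Finset.sum_eq_single i0]
    · obtain ⟨a1, a2, a3⟩ := hx i0
      rw [a1, a2]
      have e0 : (i0 : ℕ) = j x := rfl
      have hP : 0 ≤ C.Γ (F (j x)) (F (j x)) x * C.Γ (H (j x)) (H (j x)) x :=
        (sq_nonneg _).trans a3
      simp only [hsf, e0, qf]
      rw [abs_of_nonneg hP]
      set P := C.Γ (F (j x)) (F (j x)) x * C.Γ (H (j x)) (H (j x)) x with hPd
      set Hs := C.hess b (F (j x)) (H (j x)) x with hHs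
      set G := C.Γ (F (j x)) (H (j x)) x with hG
      have hd : 0 < P + ((n : ℝ) + 1)⁻¹ := by positivity
      set δ := ((n : ℝ) + 1)⁻¹ with hδ
      have hδ0 : 0 < δ := by positivity
      have a3' : G ^ 2 ≤ P := a3
      by_cases h1 : |Hs| ≤ n
      · rw [if_pos h1, if_pos ⟨trivial, h1⟩]
        have : -(2 * (φ x * (-Hs / (2 * (P + δ)) * (2 * Hs)))
            + 2 * (φ x * ((-Hs / (2 * (P + δ))) ^ 2 * (P + G ^ 2))))
            - φ x * (Hs ^ 2 / (P + δ))
            = φ x * (Hs ^ 2 / (P + δ) ^ 2) * ((P + δ) - (P + G ^ 2) / 2) := by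
          field_simp
          ring
        have h2 : 0 ≤ φ x * (Hs ^ 2 / (P + δ) ^ 2) * ((P + δ) - (P + G ^ 2) / 2) := by
          refine mul_nonneg (by positivity) ?_
          linarith
        linarith
      · rw [if_neg h1, if_neg (fun h => h1 h.2)]
        simp
    · intro i _ hi
      obtain ⟨a1, a2, _⟩ := hx i
      rw [a1, a2]
      have : ¬ (j x = (i : ℕ)) := fun h => hi (Fin.ext h.symm)
      simp only [hsf]
      rw [if_neg (fun h => this h.1)]
      ring
    · intro h; exact absurd (Finset.mem_univ _) h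
  have hint : Integrable (fun x => ∑ i : Fin (n + 1),
      (2 * (φ * (s i * C.KK b (F i) (H i)) : M →ₘ[m] ℝ) x
        + 2 * (φ * (s i * s i * C.MM (F i) (H i) (F i) (H i)) : M →ₘ[m] ℝ) x)) m :=
    integrable_finsetSum _ fun i _ => ((int_of_mem (mK i)).const_mul 2).add
      ((int_of_mem (mM i)).const_mul 2)
  have hqm : Measurable fun x => qf C b F H n (j x) x :=
    meas_sel (qf C b F H n) (fun i => qf_meas b F H n i) hj
  have hqi : Integrable (fun x => φ x * qf C b F H n (j x) x) m := by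
    refine hint.neg.mono' ((AEEqFun.stronglyMeasurable φ).measurable.mul hqm).aestronglyMeasurable ?_
    filter_upwards [hfin, nonneg_iff_ae.1 hφ0] with x h1 h2
    rw [Real.norm_of_nonneg (mul_nonneg h2 (qf_nonneg _ _ _ _ _ _))]
    exact h1
  refine ⟨hqi, ?_⟩
  have := integral_mono_ae hqi hint.neg hfin
  simp only [Pi.neg_apply] at this
  rw [integral_neg] at this
  linarith

/-- the pointwise norm, for a sequence of pairs -/
theorem hop_seq [SigmaFinite m] (hb : b ∈ C.Test) {F H : ℕ → M →ₘ[m] ℝ}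
    (hF : ∀ i, F i ∈ C.Test) (hH : ∀ i, H i ∈ C.Test) :
    ∃ D : M →ₘ[m] ℝ, 0 ≤ D ∧ MemLp D 2 m ∧
      (∀ i, ∀ᵐ x ∂m, C.hess b (F i) (H i) x ^ 2
        ≤ D x ^ 2 * (C.Γ (F i) (F i) x * C.Γ (H i) (H i) x)) ∧
      (∀ φ ∈ C.A, 0 ≤ φ → MemLp (φ * D ^ 2 : M →ₘ[m] ℝ) 1 m ∧ I (φ * D ^ 2) ≤ C.NN κ b b φ) ∧
      I (D ^ 2) ≤ I (C.lap b ^ 2) - κ * I (C.Γ b b) := by
  have hCD : IsDir C := hC.toIsDir
  choose j hj hjn hjm using fun n => sel (qf C b F H n) (fun i => qf_meas b F H n i) n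
  set Q : ℕ → M → ℝ := fun n x => qf C b F H n (j n x) x with hQ
  have hQm : ∀ n, Measurable (Q n) := fun n =>
    meas_sel (qf C b F H n) (fun i => qf_meas b F H n i) (hj n)
  have hQ0 : ∀ n x, 0 ≤ Q n x := fun n x => qf_nonneg _ _ _ _ _ _
  have hQmono : ∀ x, Monotone fun n => Q n x := by
    intro x n k hnk
    exact (qf_mono b F H hnk _ x).trans (hjm k x _ ((hjn n x).trans hnk))
  set S : M → ℝ≥0∞ := fun x => ⨆ n, ENNReal.ofReal (Q n x) with hS
  have hSm : Measurable S := Measurable.iSup fun n => (hQm n).ennreal_ofReal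
  -- the bound for weights
  have hw : ∀ φ ∈ C.A, 0 ≤ φ → ∫⁻ x, ENNReal.ofReal (φ x) * S x ∂m
      ≤ ENNReal.ofReal (C.NN κ b b φ) := by
    intro φ hφ hφ0
    have hφm : Measurable fun x => φ x := (AEEqFun.stronglyMeasurable φ).measurable
    have e1 : ∀ x, ENNReal.ofReal (φ x) * S x
        = ⨆ n, ENNReal.ofReal (φ x) * ENNReal.ofReal (Q n x) := fun x => by
      rw [hS]; exact ENNReal.mul_iSup ..
    simp_rw [e1]
    have e3 : ∫⁻ x, ⨆ n, ENNReal.ofReal (φ x) * ENNReal.ofReal (Q n x) ∂m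
        = ⨆ n, ∫⁻ x, ENNReal.ofReal (φ x) * ENNReal.ofReal (Q n x) ∂m := by
      refine lintegral_iSup (f := fun n x => ENNReal.ofReal (φ x) * ENNReal.ofReal (Q n x))
        (fun n => hφm.ennreal_ofReal.mul (hQm n).ennreal_ofReal) ?_
      intro n k hnk x
      exact mul_le_mul' le_rfl (ENNReal.ofReal_le_ofReal (hQmono x hnk))
    rw [e3]
    refine iSup_le fun n => ?_
    obtain ⟨h1, h2⟩ := hop_sel hC hB hb hF hH n (hj n) (hjn n) hφ hφ0
    have e2 : ∫⁻ x, ENNReal.ofReal (φ x) * ENNReal.ofReal (Q n x) ∂m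
        = ∫⁻ x, ENNReal.ofReal (φ x * qf C b F H n (j n x) x) ∂m := by
      refine lintegral_congr_ae ?_
      filter_upwards [nonneg_iff_ae.1 hφ0] with x hx
      rw [← ENNReal.ofReal_mul hx]
    rw [e2, ← ofReal_integral_eq_lintegral_ofReal h1]
    · exact ENNReal.ofReal_le_ofReal h2
    · filter_upwards [nonneg_iff_ae.1 hφ0] with x hx
      exact mul_nonneg hx (qf_nonneg _ _ _ _ _ _)
  obtain ⟨χ, Λ, hT, hχ0, hχ1, hχl, hlb, hl0, _⟩ := hC.exists_cut hB
  have hNN := hC.NN_tendsto (κ := κ) hB hT hχ1 hχl hlb hl0 hb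
  have hNN0 : 0 ≤ I (C.lap b ^ 2) - κ * I (C.Γ b b) :=
    ge_of_tendsto hNN (Eventually.of_forall fun k => hC.NN_nonneg hB hb (hC.test_A (hT k)) (hχ0 k))
  have htot : ∫⁻ x, S x ∂m ≤ ENNReal.ofReal (I (C.lap b ^ 2) - κ * I (C.Γ b b)) := by
    have hlim : ∀ᵐ x ∂m, Tendsto (fun k => ENNReal.ofReal (χ k x) * S x) atTop (𝓝 (S x)) := by
      filter_upwards [hχl] with x hx
      have h1 : Tendsto (fun k => ENNReal.ofReal (χ k x)) atTop (𝓝 1) := by
        have := (ENNReal.continuous_ofReal.tendsto 1).comp hx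
        rw [ENNReal.ofReal_one] at this
        exact this
      have h2 := ENNReal.Tendsto.mul_const (b := S x) h1 (Or.inl one_ne_zero)
      simpa using h2
    have h1 : ∫⁻ x, S x ∂m ≤ liminf (fun k => ∫⁻ x, ENNReal.ofReal (χ k x) * S x ∂m) atTop := by
      calc ∫⁻ x, S x ∂m = ∫⁻ x, liminf (fun k => ENNReal.ofReal (χ k x) * S x) atTop ∂m := by
            refine lintegral_congr_ae ?_
            filter_upwards [hlim] with x hx
            exact hx.liminf_eq.symm
        _ ≤ _ := lintegral_liminf_le fun k =>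
            ((AEEqFun.stronglyMeasurable (χ k)).measurable.ennreal_ofReal).mul hSm
    refine h1.trans ?_
    have h2 : Tendsto (fun k => ENNReal.ofReal (C.NN κ b b (χ k))) atTop
        (𝓝 (ENNReal.ofReal (I (C.lap b ^ 2) - κ * I (C.Γ b b)))) :=
      (ENNReal.continuous_ofReal.tendsto _).comp hNN
    rw [← h2.liminf_eq]
    exact liminf_le_liminf (Eventually.of_forall fun k => hw _ (hC.test_A (hT k)) (hχ0 k))
  have hfin : ∀ᵐ x ∂m, S x < ∞ :=
    ae_lt_top hSm (ne_top_of_le_ne_top ENNReal.ofReal_ne_top htot)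
  set Df : M → ℝ := fun x => √((S x).toReal) with hDf
  have hDm : Measurable Df := hSm.ennreal_toReal.sqrt
  set D : M →ₘ[m] ℝ := AEEqFun.mk Df hDm.aestronglyMeasurable with hD
  have hDae : ∀ᵐ x ∂m, D x = √((S x).toReal) := AEEqFun.coeFn_mk _ _
  have hD2ae : ∀ᵐ x ∂m, (D ^ 2 : M →ₘ[m] ℝ) x = (S x).toReal := by
    filter_upwards [hDae, sq_ae D] with x h1 h2
    rw [h2, h1, Real.sq_sqrt ENNReal.toReal_nonneg]
  have hSi : Integrable (fun x => (S x).toReal) m :=
    integrable_toReal_of_lintegral_ne_top hSm.aemeasurable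
      (ne_top_of_le_ne_top ENNReal.ofReal_ne_top htot)
  have hD2 : MemLp (D ^ 2 : M →ₘ[m] ℝ) 1 m :=
    memLp_one_iff_integrable.2 (hSi.congr (by filter_upwards [hD2ae] with x hx using hx.symm))
  refine ⟨D, ?_, memLp_two_of_sq hD2, ?_, ?_, ?_⟩
  · rw [nonneg_iff_ae]
    filter_upwards [hDae] with x hx
    rw [hx]; positivity
  · intro i
    filter_upwards [hDae, hfin, hCD.Γ_nonneg_ae (hC.tW (hF i)), hCD.Γ_nonneg_ae (hC.tW (hH i))]
      with x h1 h2 h3 h4
    rw [h1, Real.sq_sqrt ENNReal.toReal_nonneg]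
    set P := C.Γ (F i) (F i) x * C.Γ (H i) (H i) x with hP
    have hP0 : 0 ≤ P := mul_nonneg h3 h4
    have hev : ∀ᶠ n : ℕ in atTop, C.hess b (F i) (H i) x ^ 2
        ≤ (S x).toReal * (P + ((n : ℝ) + 1)⁻¹) := by
      filter_upwards [eventually_ge_atTop (max i ⌈|C.hess b (F i) (H i) x|⌉₊)] with n hn
      have a1 : |C.hess b (F i) (H i) x| ≤ n :=
        (Nat.le_ceil _).trans (by exact_mod_cast (le_max_right _ _).trans hn)
      have a2 : qf C b F H n i x ≤ (S x).toReal := by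
        refine (hjm n x i ((le_max_left _ _).trans hn)).trans ?_
        rw [← ENNReal.ofReal_le_iff_le_toReal h2.ne]
        exact le_iSup (fun n => ENNReal.ofReal (Q n x)) n
      unfold qf at a2
      rw [if_pos a1, abs_of_nonneg hP0, div_le_iff₀ (by positivity)] at a2
      exact a2
    have hl : Tendsto (fun n : ℕ => (S x).toReal * (P + ((n : ℝ) + 1)⁻¹)) atTop
        (𝓝 ((S x).toReal * (P + 0))) :=
      (tendsto_const_nhds.add tendsto_inv_succ).const_mul _
    rw [add_zero] at hl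
    exact ge_of_tendsto hl hev
  · intro φ hφ hφ0
    have e0 : ∀ᵐ x ∂m, (φ * D ^ 2 : M →ₘ[m] ℝ) x = φ x * (S x).toReal := by
      filter_upwards [mul_ae φ (D ^ 2), hD2ae] with x h1 h2
      rw [h1, h2]
    refine ⟨mem_mul_top hφ.2 hD2, ?_⟩
    have e1 : I (φ * D ^ 2) = (∫⁻ x, ENNReal.ofReal (φ x) * S x ∂m).toReal := by
      unfold I
      rw [integral_eq_lintegral_of_nonneg_ae]
      · congr 1
        refine lintegral_congr_ae ?_
        filter_upwards [e0, nonneg_iff_ae.1 hφ0, hfin] with x h1 h2 h3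
        rw [h1, ENNReal.ofReal_mul h2, ENNReal.ofReal_toReal h3.ne]
      · filter_upwards [e0, nonneg_iff_ae.1 hφ0] with x h1 h2
        rw [h1]
        exact mul_nonneg h2 ENNReal.toReal_nonneg
      · exact (int_of_mem (mem_mul_top hφ.2 hD2)).1
    rw [e1]
    exact ENNReal.toReal_le_of_le_ofReal (hC.NN_nonneg hB hb hφ hφ0) (hw φ hφ hφ0)
  · have e1 : I (D ^ 2) = (∫⁻ x, S x ∂m).toReal := by
      unfold I
      rw [integral_congr_ae hD2ae, integral_toReal hSm.aemeasurable hfin]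
    rw [e1]
    exact ENNReal.toReal_le_of_le_ofReal hNN0 htot

end Vale.Agent.P233.H853
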