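import Vale.Agent.P233.Bd3.B10
import Vale.Agent.P233.H853.Hop2

/-!
P233, block B6s: the static identities of B6 (one time). Weights are `1 + r` with `r` a test
function; `L = log (1 + r)`.
-/

open MeasureTheory Filter Topology
open scoped ENNReal NNReal InnerProductSpace

namespace Vale.Agent.P233.H853

open Vale.Agent.P233

variable {M : Type*} [MeasurableSpace M] {m : Measure M}

/-- `div ((1 + r) ∇a)` -/
noncomputable def De1 (C : Calc m) (r a : M →ₘ[m] ℝ) : M →ₘ[m] ℝ := C.Γ r a + (1 + r) * C.lap a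

/-- weak form of `∫ (1 + r) Hess F(∇h,∇h)` -/
noncomputable def wH1 (C : Calc m) (F h r : M →ₘ[m] ℝ) : ℝ :=
  -I (C.Γ F h * De1 C r h) - 2⁻¹ * I ((1 + r) * C.Γ F (C.Γ h h))

/-- the curvature functional `R(∇a,∇b,∇b,∇a)(1 + r)` -/
noncomputable def RR (C : Calc m) (UU : UUT m) (a b r : M →ₘ[m] ℝ) : ℝ :=
  -I (De1 C r a * C.hess b b a) + I (De1 C r b * C.hess b a a)
    + (-I ((1 + r) * UU a a b b) + 2 * I ((1 + r) * UU a b b a) - I ((1 + r) * UU b a b a))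

/-- `⟨div div (∇h ⊗ ∇h), w⟩` in weak form -/
noncomputable def ddf (C : Calc m) (h w : M →ₘ[m] ℝ) : ℝ :=
  -I (C.lap h * C.Γ w h) - 2⁻¹ * I (C.Γ w (C.Γ h h))

/-- `⟨∇L, (Δh) ∇h + ∇_{∇h} ∇h⟩` -/
noncomputable def VZ (C : Calc m) (L h : M →ₘ[m] ℝ) : M →ₘ[m] ℝ :=
  C.lap h * C.Γ L h + (2 : ℝ)⁻¹ • C.Γ L (C.Γ h h)

/-- the term `K_t` of B6 -/
noncomputable def KT (C : Calc m) (L h r : M →ₘ[m] ℝ) : ℝ :=
  -ddf C h ((1 + r) * C.lap L) - 2 * I ((1 + r) * C.lap L * VZ C L h)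
    - I ((1 + r) * C.Γ L L * VZ C L h) + 2 * I ((1 + r) * C.Γ L h * C.hess h L L)

/-- `1 + r = exp L`, with `L` and `r` test functions with bounded Laplacian -/
structure IsLog (C : Calc m) (L r : M →ₘ[m] ℝ) : Prop where
  hL : L ∈ C.TestI
  hr : r ∈ C.TestI
  rel : ∀ g ∈ C.W, C.Γ r g = (1 + r) * C.Γ L g
  lap : C.lap r = (1 + r) * (C.lap L + C.Γ L L)

variable {C : Calc m} {UU : UUT m} {a b c f g h k L r w θ φ ψ : M →ₘ[m] ℝ}

theorem mem_one_add_mul {p : ℝ≥0∞} (hr : MemLp r ∞ m) (hf : MemLp f p m) :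
    MemLp ((1 + r) * f : M →ₘ[m] ℝ) p m := mem_mul_top (mem_add mem_top_one hr) hf

variable (hC : IsGamma C) {κ : ℝ} (hB : C.BEi κ)

include hC in
theorem one_add_mul_A (hr : r ∈ C.A) (hf : f ∈ C.A) : (1 + r) * f ∈ C.A := by
  have e : (1 + r) * f = f + r * f := by ring
  rw [e]
  exact hC.A_add hf (hC.mul_mem_A hr hf)

include hC in
/-- the product rule for the weight `1 + r` -/
theorem Γ_one_add_mul (hr : r ∈ C.A) (hf : f ∈ C.A) (hg : g ∈ C.W) :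
    C.Γ ((1 + r) * f) g = (1 + r) * C.Γ f g + f * C.Γ r g := by
  have e : (1 + r) * f = f + r * f := by ring
  rw [e, hC.add_left _ hf.1 _ (hC.mul_mem_A hr hf).1 _ hg, hC.Γ_mul_left hr hf hg]
  ring

include hC hB in
theorem isLog_of_exp (hL : L ∈ C.TestI) (hr : ∀ᵐ x ∂m, r x = Real.exp (L x) - 1) :
    IsLog C L r := by
  obtain ⟨g, hg, h1, h2, h3⟩ := hC.testI_comp hB hL (fun t => Real.exp t - 1)
    (Real.contDiff_exp.sub contDiff_const) (by simp)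
  have e : g = r := by
    apply AEEqFun.ext
    filter_upwards [h1, hr] with x a1 a2
    rw [a1, a2]
  subst e
  have d1 : deriv (fun t => Real.exp t - 1) = Real.exp := by
    funext t; simp
  have d2 : deriv (deriv (fun t => Real.exp t - 1)) = Real.exp := by
    rw [d1]; exact Real.deriv_exp
  rw [d2, d1] at h3
  rw [d1] at h2
  refine ⟨hL, hg, fun k hk => ?_, ?_⟩
  · apply AEEqFun.ext
    filter_upwards [h2 k hk, hr, mul_ae (1 + g) (C.Γ L k), add_ae 1 g,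
      one_ae (M := M) (m := m)] with x a1 a2 a3 a4 a5
    rw [a1, a3, a4, a5, a2]
    ring
  · apply AEEqFun.ext
    filter_upwards [h3, hr, mul_ae (1 + g) (C.lap L + C.Γ L L), add_ae 1 g,
      one_ae (M := M) (m := m), add_ae (C.lap L) (C.Γ L L)] with x a1 a2 a3 a4 a5 a6
    rw [a1, a3, a4, a5, a2, a6]
    ring

/-! ### the identity for `K_t` -/

theorem I_sub' {f g : M →ₘ[m] ℝ} (hf : MemLp f 1 m) (hg : MemLp g 1 m) :
    I (f - g) = I f - I g := I_sub hf hg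

include hC hB in
/-- **the identity for `K_t`**:
`K_t = -⟨Hess (ΔL)(∇h,∇h), ρ⟩ + ∫ Δρ Hess L(∇h,∇h)`, `ρ = 1 + r = exp L` -/
theorem KT_eq (hI : IsLog C L r) (hh : h ∈ C.TestI) :
    KT C L h r = -wH1 C (C.lap L) h r + I (C.lap r * C.hess L h h) := by
  have hCD : IsDir C := hC.toIsDir
  have tL := hI.hL.1
  have tr := hI.hr.1
  have th := hh.1
  have LW := hC.tW tL
  have rW := hC.tW tr
  have hW := hC.tW th
  have rA := hC.test_A tr
  have hA := hC.test_A th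
  have LA := hC.test_A tL
  have laA : C.lap L ∈ C.A := hC.testI_lap_A hB hI.hL
  have lhA : C.lap h ∈ C.A := hC.testI_lap_A hB hh
  have hhA : C.Γ h h ∈ C.A := hC.Γ_mem hB th th
  have LLA : C.Γ L L ∈ C.A := hC.Γ_mem hB tL tL
  set q := C.Γ L h with hq
  have qA : q ∈ C.A := hC.Γ_mem hB tL th
  set w0 := (1 + r) * C.lap L with hw0
  have wA : w0 ∈ C.A := one_add_mul_A hC rA laA
  set P := C.Γ L L with hP
  have PA : P ∈ C.A := LLA
  set rP := (1 + r) * P with hrP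
  have rPA : rP ∈ C.A := one_add_mul_A hC rA PA
  -- the product rules
  have R1 : ∀ g ∈ C.W, C.Γ w0 g = (1 + r) * C.Γ (C.lap L) g + w0 * C.Γ L g := by
    intro g hg
    rw [hw0, Γ_one_add_mul hC rA laA hg, hI.rel g hg]
    ring
  have R2 : ∀ g ∈ C.W, C.Γ rP g = (1 + r) * C.Γ P g + rP * C.Γ L g := by
    intro g hg
    rw [hrP, Γ_one_add_mul hC rA PA hg, hI.rel g hg]
    ring
  have rh : C.Γ r h = (1 + r) * q := hI.rel h hW
  -- Hessians
  have sy : C.Γ h L = q := hC.symm _ hW _ LW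
  have H1 : (2 : ℝ) • C.hess L h h = (2 : ℝ) • C.Γ h q - C.Γ L (C.Γ h h) := by
    unfold Calc.hess
    algebra
  have H2 : (2 : ℝ) • C.hess h L L = (2 : ℝ) • C.Γ L q - C.Γ h P := by
    unfold Calc.hess
    rw [sy]
    algebra
  -- memberships
  have i1 : ∀ {x y z : M →ₘ[m] ℝ}, x ∈ C.A → y ∈ C.W → z ∈ C.W →
      MemLp (x * C.Γ y z : M →ₘ[m] ℝ) 1 m := fun hx hy hz =>
    mem_mul_top hx.2 (hC.Γ_mem1 hy hz)
  have i2 : ∀ {x y : M →ₘ[m] ℝ}, x ∈ C.A → MemLp y 2 m → MemLp (x * y : M →ₘ[m] ℝ) 1 m :=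
    fun hx hy => mem_mul_22 (hC.memLp _ hx.1) hy
  have hs1 := hC.hess_mem2 hB tL th th
  have hs2 := hC.hess_mem2 hB th tL tL
  have r1 : ∀ {x : M →ₘ[m] ℝ}, MemLp x 1 m → MemLp ((1 + r) * x : M →ₘ[m] ℝ) 1 m :=
    fun hx => mem_one_add_mul rA.2 hx
  -- step 1: `-wH1`
  have S1 : I (C.Γ (C.lap L) h * De1 C r h)
      = I (C.lap h * C.Γ w0 h) - I (w0 * (C.lap h * q)) + I (q * C.Γ w0 h) - I (w0 * (q * q)) := by
    have e : C.Γ (C.lap L) h * De1 C r h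
        = C.lap h * C.Γ w0 h - w0 * (C.lap h * q) + q * C.Γ w0 h - w0 * (q * q) := by
      unfold De1
      rw [R1 h hW, rh]
      ring
    have n1 := i1 lhA wA.1 hW
    have n2 : MemLp (w0 * (C.lap h * q) : M →ₘ[m] ℝ) 1 m :=
      i2 wA (hC.memLp _ (hC.mul_mem_A lhA qA).1)
    have n3 := i1 qA wA.1 hW
    have n4 : MemLp (w0 * (q * q) : M →ₘ[m] ℝ) 1 m := i2 wA (hC.memLp _ (hC.mul_mem_A qA qA).1)
    rw [e, I_sub (mem_add (mem_sub n1 n2) n3) n4, I_add (mem_sub n1 n2) n3, I_sub n1 n2]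
  have S2 : I ((1 + r) * C.Γ (C.lap L) (C.Γ h h))
      = I (C.Γ w0 (C.Γ h h)) - I (w0 * C.Γ L (C.Γ h h)) := by
    have e : (1 + r) * C.Γ (C.lap L) (C.Γ h h)
        = C.Γ w0 (C.Γ h h) - w0 * C.Γ L (C.Γ h h) := by
      rw [R1 _ hhA.1]
      ring
    rw [e, I_sub (hC.Γ_mem1 wA.1 hhA.1) (i1 wA LW hhA.1)]
  have S3 : I (q * C.Γ w0 h) = -I (w0 * C.Γ h q) - I (w0 * (C.lap h * q)) := by
    have e0 := hC.ibp' th qA wA
    have n1 : MemLp (q * C.Γ h w0 : M →ₘ[m] ℝ) 1 m := i1 qA hW wA.1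
    have n2 : MemLp (w0 * C.Γ h q : M →ₘ[m] ℝ) 1 m := i1 wA hW qA.1
    have n3 : MemLp (q * w0 * C.lap h : M →ₘ[m] ℝ) 1 m :=
      mem_mul_22 (mem_mul_top qA.2 (hC.memLp _ wA.1)) (hC.memLp _ lhA.1)
    rw [I_add (mem_add n1 n2) n3, I_add n1 n2] at e0
    have e1 : q * w0 * C.lap h = w0 * (C.lap h * q) := by ring
    rw [e1] at e0
    rw [hC.symm _ wA.1 _ hW]
    linarith
  have S4 : I (w0 * C.Γ h q) = I (w0 * C.hess L h h) + 2⁻¹ * I (w0 * C.Γ L (C.Γ h h)) := by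
    have e : (2 : ℝ) • (w0 * C.Γ h q) = (2 : ℝ) • (w0 * C.hess L h h) + w0 * C.Γ L (C.Γ h h) := by
      have : (2 : ℝ) • (w0 * C.hess L h h) = w0 * ((2 : ℝ) • C.hess L h h) := by algebra
      rw [this, H1]
      algebra
    have e2 := congrArg I e
    rw [I_smul, I_add (mem_smul _ (i2 wA hs1)) (i1 wA LW hhA.1), I_smul] at e2
    linarith
  -- step 2: `∫ Δρ Hess L(∇h,∇h)`
  have lr : C.lap r = w0 + rP := by
    rw [hI.lap, hw0, hrP]
    ring
  have S5 : I (C.lap r * C.hess L h h) = I (w0 * C.hess L h h) + I (rP * C.hess L h h) := by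
    have e : C.lap r * C.hess L h h = w0 * C.hess L h h + rP * C.hess L h h := by
      rw [lr]; ring
    rw [e, I_add (i2 wA hs1) (i2 rPA hs1)]
  have S6 : I (rP * C.hess L h h) = I (rP * C.Γ h q) - 2⁻¹ * I (rP * C.Γ L (C.Γ h h)) := by
    have e : (2 : ℝ) • (rP * C.hess L h h) = (2 : ℝ) • (rP * C.Γ h q) - rP * C.Γ L (C.Γ h h) := by
      have : (2 : ℝ) • (rP * C.hess L h h) = rP * ((2 : ℝ) • C.hess L h h) := by algebra
      rw [this, H1]
      algebra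
    have e2 := congrArg I e
    rw [I_smul, I_sub (mem_smul _ (i1 rPA hW qA.1)) (i1 rPA LW hhA.1), I_smul] at e2
    linarith
  have S7 : I (rP * C.Γ h q) = -I ((1 + r) * (q * C.Γ h P)) - I (rP * (q * q))
      - I (rP * (C.lap h * q)) := by
    have e0 := hC.ibp' th rPA qA
    have n1 : MemLp (rP * C.Γ h q : M →ₘ[m] ℝ) 1 m := i1 rPA hW qA.1
    have n2 : MemLp (q * C.Γ h rP : M →ₘ[m] ℝ) 1 m := i1 qA hW rPA.1
    have n3 : MemLp (rP * q * C.lap h : M →ₘ[m] ℝ) 1 m :=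
      mem_mul_22 (mem_mul_top rPA.2 (hC.memLp _ qA.1)) (hC.memLp _ lhA.1)
    rw [I_add (mem_add n1 n2) n3, I_add n1 n2] at e0
    have e1 : q * C.Γ h rP = (1 + r) * (q * C.Γ h P) + rP * (q * q) := by
      rw [← hC.symm _ rPA.1 _ hW, R2 h hW, hC.symm _ PA.1 _ hW]
      ring
    have e2 : rP * q * C.lap h = rP * (C.lap h * q) := by ring
    rw [e1, I_add (r1 (i1 qA hW PA.1)) (i2 rPA (hC.memLp _ (hC.mul_mem_A qA qA).1)), e2] at e0
    linarith
  have S8 : I (w0 * (q * q)) = -2 * I ((1 + r) * (q * C.Γ L q)) - I (rP * (q * q)) := by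
    have e0 := hC.ibp tr (hC.mul_mem_A qA qA).1
    have e1 : C.lap r * (q * q) = w0 * (q * q) + rP * (q * q) := by rw [lr]; ring
    have e2 : C.Γ r (q * q) = (2 : ℝ) • ((1 + r) * (q * C.Γ L q)) := by
      rw [hI.rel _ (hC.mul_mem_A qA qA).1, hC.Γ_mul_right qA qA LW]
      algebra
    rw [e2, I_smul, e1, I_add (i2 wA (hC.memLp _ (hC.mul_mem_A qA qA).1))
      (i2 rPA (hC.memLp _ (hC.mul_mem_A qA qA).1))] at e0
    linarith
  have S9 : I ((1 + r) * (q * C.Γ L q)) = I ((1 + r) * q * C.hess h L L)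
      + 2⁻¹ * I ((1 + r) * (q * C.Γ h P)) := by
    have e : (2 : ℝ) • ((1 + r) * (q * C.Γ L q)) = (2 : ℝ) • ((1 + r) * q * C.hess h L L)
        + (1 + r) * (q * C.Γ h P) := by
      have : (2 : ℝ) • ((1 + r) * q * C.hess h L L) = (1 + r) * q * ((2 : ℝ) • C.hess h L L) := by
        algebra
      rw [this, H2]
      algebra
    have n1 : MemLp ((1 + r) * q * C.hess h L L : M →ₘ[m] ℝ) 1 m := by
      have : (1 + r) * q * C.hess h L L = (1 + r) * (q * C.hess h L L) := by ring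
      rw [this]
      exact r1 (i2 qA hs2)
    have e2 := congrArg I e
    rw [I_smul, I_add (mem_smul _ n1) (r1 (i1 qA hW PA.1)), I_smul] at e2
    linarith
  -- the terms of `KT`
  have T1 : I (w0 * VZ C L h) = I (w0 * (C.lap h * q)) + 2⁻¹ * I (w0 * C.Γ L (C.Γ h h)) := by
    have e : w0 * VZ C L h = w0 * (C.lap h * q) + (2 : ℝ)⁻¹ • (w0 * C.Γ L (C.Γ h h)) := by
      unfold VZ
      algebra
    rw [e, I_add (i2 wA (hC.memLp _ (hC.mul_mem_A lhA qA).1)) (mem_smul _ (i1 wA LW hhA.1)), I_smul]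
  have T2 : I (rP * VZ C L h) = I (rP * (C.lap h * q)) + 2⁻¹ * I (rP * C.Γ L (C.Γ h h)) := by
    have e : rP * VZ C L h = rP * (C.lap h * q) + (2 : ℝ)⁻¹ • (rP * C.Γ L (C.Γ h h)) := by
      unfold VZ
      algebra
    rw [e, I_add (i2 rPA (hC.memLp _ (hC.mul_mem_A lhA qA).1)) (mem_smul _ (i1 rPA LW hhA.1)),
      I_smul]
  unfold KT wH1 ddf
  rw [← hw0, ← hP, ← hrP, ← hq, T1, T2, S1, S2, S5, S6, S7]
  rw [S8] at *
  rw [S9] at *
  rw [S3, S4]
  ring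

end Vale.Agent.P233.H853
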